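import Mathlib

open Finset BigOperators

namespace Vale.Agent.Helper13.Mixing

variable {Ω : Type} [Fintype Ω]

/-- quadratic form of a kernel -/
def qf (P : Ω → Ω → ℝ) (f g : Ω → ℝ) : ℝ := ∑ x, ∑ y, P x y * f x * g y

/-- applying a kernel to a function -/
def ap (P : Ω → Ω → ℝ) (g : Ω → ℝ) : Ω → ℝ := fun x => ∑ y, P x y * g y

/-- sum of squares -/
def ssq (g : Ω → ℝ) : ℝ := ∑ x, g x ^ 2

lemma ssq_nonneg (g : Ω → ℝ) : 0 ≤ ssq g := Finset.sum_nonneg fun _ _ => sq_nonneg _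

lemma qf_symm (P : Ω → Ω → ℝ) (hs : ∀ x y, P x y = P y x) (f g : Ω → ℝ) :
    qf P f g = qf P g f := by
  unfold qf
  rw [Finset.sum_comm]
  refine Finset.sum_congr rfl fun x _ => Finset.sum_congr rfl fun y _ => ?_
  rw [hs y x]; ring

lemma qf_ap (P : Ω → Ω → ℝ) (f g : Ω → ℝ) :
    qf P f g = ∑ x, f x * ap P g x := by
  unfold qf ap
  refine Finset.sum_congr rfl fun x _ => ?_
  rw [Finset.mul_sum]
  refine Finset.sum_congr rfl fun y _ => by ring

lemma qf_add_left (P : Ω → Ω → ℝ) (f f' g : Ω → ℝ) :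
    qf P (fun x => f x + f' x) g = qf P f g + qf P f' g := by
  unfold qf
  rw [← Finset.sum_add_distrib]
  refine Finset.sum_congr rfl fun x _ => ?_
  rw [← Finset.sum_add_distrib]
  refine Finset.sum_congr rfl fun y _ => by ring

lemma qf_smul_left (P : Ω → Ω → ℝ) (c : ℝ) (f g : Ω → ℝ) :
    qf P (fun x => c * f x) g = c * qf P f g := by
  unfold qf
  rw [Finset.mul_sum]
  refine Finset.sum_congr rfl fun x _ => ?_
  rw [Finset.mul_sum]
  refine Finset.sum_congr rfl fun y _ => by ring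

lemma qf_add_right (P : Ω → Ω → ℝ) (f g g' : Ω → ℝ) :
    qf P f (fun x => g x + g' x) = qf P f g + qf P f g' := by
  unfold qf
  rw [← Finset.sum_add_distrib]
  refine Finset.sum_congr rfl fun x _ => ?_
  rw [← Finset.sum_add_distrib]
  refine Finset.sum_congr rfl fun y _ => by ring

lemma qf_smul_right (P : Ω → Ω → ℝ) (c : ℝ) (f g : Ω → ℝ) :
    qf P f (fun x => c * g x) = c * qf P f g := by
  unfold qf
  rw [Finset.mul_sum]
  refine Finset.sum_congr rfl fun x _ => ?_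
  rw [Finset.mul_sum]
  refine Finset.sum_congr rfl fun y _ => by ring

/-- Cauchy-Schwarz for a positive semidefinite symmetric form. -/
lemma qf_cauchy_schwarz (P : Ω → Ω → ℝ) (hs : ∀ x y, P x y = P y x)
    (hpsd : ∀ f : Ω → ℝ, 0 ≤ qf P f f) (f g : Ω → ℝ) :
    qf P f g ^ 2 ≤ qf P f f * qf P g g := by
  have h : ∀ s : ℝ, 0 ≤ qf P g g * (s * s) + 2 * qf P f g * s + qf P f f := by
    intro s
    have := hpsd (fun x => f x + s * g x)
    rw [qf_add_left, qf_add_right, qf_add_right, qf_smul_left, qf_smul_left, qf_smul_right,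
      qf_smul_right, qf_symm P hs g f] at this
    linarith
  have hd := discrim_le_zero h
  unfold discrim at hd
  nlinarith

lemma sum_sq_row (P : Ω → Ω → ℝ) (hrow : ∀ x, ∑ y, P x y = 1) (f : Ω → ℝ) :
    ∑ x, ∑ y, P x y * f x ^ 2 = ssq f := by
  unfold ssq
  refine Finset.sum_congr rfl fun x _ => ?_
  rw [← Finset.sum_mul, hrow x, one_mul]

lemma col_sum (P : Ω → Ω → ℝ) (hs : ∀ x y, P x y = P y x)
    (hrow : ∀ x, ∑ y, P x y = 1) (y : Ω) : ∑ x, P x y = 1 := by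
  rw [← hrow y]; exact Finset.sum_congr rfl fun x _ => hs x y

lemma sum_sq_col (P : Ω → Ω → ℝ) (hs : ∀ x y, P x y = P y x)
    (hrow : ∀ x, ∑ y, P x y = 1) (f : Ω → ℝ) :
    ∑ x, ∑ y, P x y * f y ^ 2 = ssq f := by
  rw [Finset.sum_comm]
  unfold ssq
  refine Finset.sum_congr rfl fun y _ => ?_
  rw [← Finset.sum_mul, col_sum P hs hrow y, one_mul]

/-- Dirichlet identity for a symmetric stochastic kernel. -/
lemma dirichlet_identity (P : Ω → Ω → ℝ) (hs : ∀ x y, P x y = P y x)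
    (hrow : ∀ x, ∑ y, P x y = 1) (f : Ω → ℝ) :
    ∑ x, ∑ y, P x y * (f x - f y) ^ 2 = 2 * ssq f - 2 * qf P f f := by
  have h3 : ∑ x, ∑ y, P x y * (f x - f y) ^ 2
      = ∑ x, ∑ y, P x y * f x ^ 2 + ∑ x, ∑ y, P x y * f y ^ 2
        - 2 * ∑ x, ∑ y, P x y * f x * f y := by
    rw [Finset.mul_sum, ← Finset.sum_add_distrib, ← Finset.sum_sub_distrib]
    refine Finset.sum_congr rfl fun x _ => ?_
    rw [Finset.mul_sum, ← Finset.sum_add_distrib, ← Finset.sum_sub_distrib]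
    refine Finset.sum_congr rfl fun y _ => by ring
  rw [h3, sum_sq_row P hrow, sum_sq_col P hs hrow]; unfold qf; ring

/-- A lazy symmetric stochastic kernel is positive semidefinite. -/
lemma qf_nonneg [DecidableEq Ω] (P : Ω → Ω → ℝ) (hs : ∀ x y, P x y = P y x)
    (hnn : ∀ x y, 0 ≤ P x y) (hrow : ∀ x, ∑ y, P x y = 1)
    (hlazy : ∀ x, 1 / 2 ≤ P x x) (f : Ω → ℝ) : 0 ≤ qf P f f := by
  have key : 0 ≤ ∑ x, ∑ y, (2 * P x y - if x = y then 1 else 0) * (f x + f y) ^ 2 := by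
    refine Finset.sum_nonneg fun x _ => Finset.sum_nonneg fun y _ => ?_
    refine mul_nonneg ?_ (sq_nonneg _)
    by_cases hxy : x = y
    · subst hxy; simp; linarith [hlazy x]
    · simp [hxy]; exact hnn x y
  have h4 : ∑ x, ∑ y, (if x = y then (1:ℝ) else 0) * (f x + f y) ^ 2 = 4 * ssq f := by
    unfold ssq
    rw [Finset.mul_sum]
    refine Finset.sum_congr rfl fun x _ => ?_
    simp [Finset.sum_ite_eq]
    ring
  have h3 : ∑ x, ∑ y, (2 * P x y - if x = y then 1 else 0) * (f x + f y) ^ 2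
      = 2 * ∑ x, ∑ y, P x y * f x ^ 2 + 2 * ∑ x, ∑ y, P x y * f y ^ 2
        + 4 * ∑ x, ∑ y, P x y * f x * f y
        - ∑ x, ∑ y, (if x = y then (1:ℝ) else 0) * (f x + f y) ^ 2 := by
    simp only [Finset.mul_sum, ← Finset.sum_add_distrib, ← Finset.sum_sub_distrib]
    refine Finset.sum_congr rfl fun x _ => ?_
    refine Finset.sum_congr rfl fun y _ => by ring
  rw [h3, sum_sq_row P hrow, sum_sq_col P hs hrow, h4] at key
  unfold qf; linarith

lemma qf_ap_ap (P : Ω → Ω → ℝ) (hs : ∀ x y, P x y = P y x) (g : Ω → ℝ) :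
    qf P g (ap P g) = ssq (ap P g) := by
  rw [qf_symm P hs, qf_ap]
  unfold ssq
  refine Finset.sum_congr rfl fun x _ => by ring

lemma sum_ap (P : Ω → Ω → ℝ) (hs : ∀ x y, P x y = P y x)
    (hrow : ∀ x, ∑ y, P x y = 1) (g : Ω → ℝ) : ∑ x, ap P g x = ∑ x, g x := by
  unfold ap
  rw [Finset.sum_comm]
  refine Finset.sum_congr rfl fun y _ => ?_
  rw [← Finset.sum_mul, col_sum P hs hrow y, one_mul]

/-- L2 contraction on mean-zero functions from a Poincare inequality. -/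
lemma contraction [DecidableEq Ω] (P : Ω → Ω → ℝ) (hs : ∀ x y, P x y = P y x)
    (hnn : ∀ x y, 0 ≤ P x y) (hrow : ∀ x, ∑ y, P x y = 1)
    (hlazy : ∀ x, 1 / 2 ≤ P x x) (c : ℝ) (hc : 0 ≤ c)
    (hP : ∀ g : Ω → ℝ, ∑ x, g x = 0 → qf P g g ≤ c * ssq g)
    (g : Ω → ℝ) (hg : ∑ x, g x = 0) : ssq (ap P g) ≤ c ^ 2 * ssq g := by
  have hpsd := qf_nonneg P hs hnn hrow hlazy
  have h1 := qf_cauchy_schwarz P hs hpsd g (ap P g)
  rw [qf_ap_ap P hs] at h1
  have hg' : ∑ x, ap P g x = 0 := by rw [sum_ap P hs hrow, hg]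
  have h2 := hP g hg
  have h3 := hP (ap P g) hg'
  have h0 := ssq_nonneg (ap P g)
  have h0' := ssq_nonneg g
  have h4 : ssq (ap P g) ^ 2 ≤ (c * ssq g) * (c * ssq (ap P g)) := by
    refine h1.trans ?_
    exact mul_le_mul h2 h3 (hpsd _) (mul_nonneg hc h0')
  by_cases hz : ssq (ap P g) = 0
  · rw [hz]; positivity
  · have hpos : 0 < ssq (ap P g) := lt_of_le_of_ne h0 (Ne.symm hz)
    have : ssq (ap P g) * ssq (ap P g) ≤ (c ^ 2 * ssq g) * ssq (ap P g) := by nlinarith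
    exact le_of_mul_le_mul_right this hpos


/-- one-step contraction with the exponential rate, valid for every real rate `lam`. -/
lemma contraction_exp [DecidableEq Ω] (P : Ω → Ω → ℝ) (hs : ∀ x y, P x y = P y x)
    (hnn : ∀ x y, 0 ≤ P x y) (hrow : ∀ x, ∑ y, P x y = 1)
    (hlazy : ∀ x, 1 / 2 ≤ P x x) (lam : ℝ)
    (hP : ∀ g : Ω → ℝ, ∑ x, g x = 0 → 2 * lam * ssq g ≤ ∑ x, ∑ y, P x y * (g x - g y) ^ 2)
    (g : Ω → ℝ) (hg : ∑ x, g x = 0) :
    ssq (ap P g) ≤ Real.exp (-lam) ^ 2 * ssq g := by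
  have hpsd := qf_nonneg P hs hnn hrow hlazy
  have hq : ∀ g : Ω → ℝ, ∑ x, g x = 0 → qf P g g ≤ (1 - lam) * ssq g := by
    intro g hg
    have h1 := hP g hg
    rw [dirichlet_identity P hs hrow] at h1
    linarith
  have hexp : 1 - lam ≤ Real.exp (-lam) := by
    have := Real.add_one_le_exp (-lam)
    linarith
  by_cases hl : lam ≤ 1
  · have hc : 0 ≤ 1 - lam := by linarith
    have h1 := contraction P hs hnn hrow hlazy (1 - lam) hc hq g hg
    have h2 : (1 - lam) ^ 2 ≤ Real.exp (-lam) ^ 2 := by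
      exact pow_le_pow_left₀ hc hexp 2
    calc ssq (ap P g) ≤ (1 - lam) ^ 2 * ssq g := h1
      _ ≤ Real.exp (-lam) ^ 2 * ssq g := mul_le_mul_of_nonneg_right h2 (ssq_nonneg g)
  · have hl' : 1 - lam < 0 := by linarith
    have hzero : ∀ g : Ω → ℝ, ∑ x, g x = 0 → ssq g = 0 := by
      intro g hg
      have h1 := hq g hg
      have h2 := hpsd g
      have h3 := ssq_nonneg g
      nlinarith
    have hg' : ∑ x, ap P g x = 0 := by rw [sum_ap P hs hrow, hg]
    rw [hzero _ hg', hzero g hg]; simp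

/-- the deviation of the `t`-step distribution started at `x` from the uniform law -/
noncomputable def dev [DecidableEq Ω] (P : Matrix Ω Ω ℝ) (t : ℕ) (x : Ω) : Ω → ℝ :=
  fun y => (P ^ t) x y - 1 / (Fintype.card Ω : ℝ)

lemma dev_succ [DecidableEq Ω] (P : Matrix Ω Ω ℝ) (hs : ∀ x y, P x y = P y x)
    (hrow : ∀ x, ∑ y, P x y = 1) (t : ℕ) (x : Ω) :
    dev P (t + 1) x = ap (fun a b => P a b) (dev P t x) := by
  funext y
  unfold dev ap
  rw [pow_succ, Matrix.mul_apply]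
  have h1 : ∑ z, P y z * ((P ^ t) x z - 1 / (Fintype.card Ω : ℝ))
      = ∑ z, P y z * (P ^ t) x z - (∑ z, P y z) * (1 / (Fintype.card Ω : ℝ)) := by
    rw [Finset.sum_mul, ← Finset.sum_sub_distrib]
    refine Finset.sum_congr rfl fun z _ => by ring
  rw [h1, hrow y, one_mul]
  congr 1
  refine Finset.sum_congr rfl fun z _ => ?_
  rw [hs z y]; ring

lemma sum_dev_zero [DecidableEq Ω] (P : Matrix Ω Ω ℝ) (x : Ω) :
    ∑ y, dev P 0 x y = 0 := by
  unfold dev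
  have hN : (0:ℝ) < Fintype.card Ω := by
    have : 0 < Fintype.card Ω := Fintype.card_pos_iff.mpr ⟨x⟩
    exact_mod_cast this
  rw [Finset.sum_sub_distrib]
  simp [Matrix.one_apply]
  field_simp
  ring

lemma ssq_dev_zero [DecidableEq Ω] (P : Matrix Ω Ω ℝ) (x : Ω) :
    ssq (dev P 0 x) ≤ 1 := by
  have hN : (0:ℝ) < Fintype.card Ω := by
    have : 0 < Fintype.card Ω := Fintype.card_pos_iff.mpr ⟨x⟩
    exact_mod_cast this
  have h0 := sum_dev_zero P x
  -- sum (d y)^2 = sum d y * (1[x=y]) - (1/N) sum d y = d x = 1 - 1/N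
  have h1 : ssq (dev P 0 x) = ∑ y, dev P 0 x y * ((1 : Matrix Ω Ω ℝ) x y)
      - (1 / (Fintype.card Ω : ℝ)) * ∑ y, dev P 0 x y := by
    unfold ssq
    rw [Finset.mul_sum, ← Finset.sum_sub_distrib]
    refine Finset.sum_congr rfl fun y _ => ?_
    unfold dev
    simp only [pow_zero]
    ring
  rw [h1, h0, mul_zero, sub_zero]
  simp only [Matrix.one_apply, mul_ite, mul_one, mul_zero, Finset.sum_ite_eq, Finset.mem_univ,
    if_true]
  unfold dev
  simp only [pow_zero, Matrix.one_apply_eq]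
  have : 0 < 1 / (Fintype.card Ω : ℝ) := by positivity
  linarith

lemma sum_dev [DecidableEq Ω] (P : Matrix Ω Ω ℝ) (hs : ∀ x y, P x y = P y x)
    (hrow : ∀ x, ∑ y, P x y = 1) (t : ℕ) (x : Ω) : ∑ y, dev P t x y = 0 := by
  induction t with
  | zero => exact sum_dev_zero P x
  | succ t ih => rw [dev_succ P hs hrow, sum_ap _ hs hrow, ih]

lemma ssq_dev [DecidableEq Ω] (P : Matrix Ω Ω ℝ) (hs : ∀ x y, P x y = P y x)
    (hnn : ∀ x y, 0 ≤ P x y) (hrow : ∀ x, ∑ y, P x y = 1)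
    (hlazy : ∀ x, 1 / 2 ≤ P x x) (lam : ℝ)
    (hP : ∀ g : Ω → ℝ, ∑ x, g x = 0 → 2 * lam * ssq g ≤ ∑ x, ∑ y, P x y * (g x - g y) ^ 2)
    (t : ℕ) (x : Ω) : ssq (dev P t x) ≤ Real.exp (-lam * t) ^ 2 := by
  induction t with
  | zero => simpa using ssq_dev_zero P x
  | succ t ih =>
    rw [dev_succ P hs hrow]
    have h1 := contraction_exp (fun a b => P a b) hs hnn hrow hlazy lam hP (dev P t x)
      (sum_dev P hs hrow t x)
    have h2 : Real.exp (-lam * ((t + 1 : ℕ) : ℝ)) = Real.exp (-lam) * Real.exp (-lam * t) := by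
      rw [← Real.exp_add]; congr 1; push_cast; ring
    rw [h2, mul_pow]
    calc ssq (ap (fun a b => P a b) (dev P t x)) ≤ Real.exp (-lam) ^ 2 * ssq (dev P t x) := h1
      _ ≤ Real.exp (-lam) ^ 2 * Real.exp (-lam * t) ^ 2 :=
        mul_le_mul_of_nonneg_left ih (sq_nonneg _)

/-- total-variation bound: for a lazy symmetric stochastic matrix with a Poincare inequality,
the distance to the uniform law after `t` steps is at most `sqrt N * exp (-lam t) / 2`. -/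
theorem tv_bound [DecidableEq Ω] (P : Matrix Ω Ω ℝ) (hs : ∀ x y, P x y = P y x)
    (hnn : ∀ x y, 0 ≤ P x y) (hrow : ∀ x, ∑ y, P x y = 1)
    (hlazy : ∀ x, 1 / 2 ≤ P x x) (lam : ℝ)
    (hP : ∀ g : Ω → ℝ, ∑ x, g x = 0 → 2 * lam * ssq g ≤ ∑ x, ∑ y, P x y * (g x - g y) ^ 2)
    (t : ℕ) (x : Ω) :
    (1 / 2 : ℝ) * ∑ y, |(P ^ t) x y - 1 / (Fintype.card Ω : ℝ)|
      ≤ (1 / 2 : ℝ) * (Real.sqrt (Fintype.card Ω) * Real.exp (-lam * t)) := by
  have h1 := ssq_dev P hs hnn hrow hlazy lam hP t x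
  have hcs : (∑ y, |dev P t x y| * 1) ^ 2 ≤ (∑ y, |dev P t x y| ^ 2) * (∑ _y : Ω, (1:ℝ) ^ 2) :=
    Finset.sum_mul_sq_le_sq_mul_sq _ _ _
  simp only [mul_one, sq_abs, one_pow, Finset.sum_const, Finset.card_univ, nsmul_eq_mul] at hcs
  have h2 : (∑ y, |dev P t x y|) ^ 2
      ≤ (Real.sqrt (Fintype.card Ω) * Real.exp (-lam * t)) ^ 2 := by
    rw [mul_pow, Real.sq_sqrt (Nat.cast_nonneg _)]
    calc (∑ y, |dev P t x y|) ^ 2 ≤ (∑ y, dev P t x y ^ 2) * (Fintype.card Ω : ℝ) := hcs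
      _ ≤ Real.exp (-lam * t) ^ 2 * (Fintype.card Ω : ℝ) :=
        mul_le_mul_of_nonneg_right h1 (Nat.cast_nonneg _)
      _ = (Fintype.card Ω : ℝ) * Real.exp (-lam * t) ^ 2 := by ring
  have h3 : ∑ y, |dev P t x y| ≤ Real.sqrt (Fintype.card Ω) * Real.exp (-lam * t) := by
    refine abs_le_of_sq_le_sq' h2 ?_ |>.2
    positivity
  have : ∑ y, |(P ^ t) x y - 1 / (Fintype.card Ω : ℝ)| = ∑ y, |dev P t x y| := rfl
  rw [this]
  linarith

end Vale.Agent.Helper13.Mixing
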