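import Mathlib

/-!
Definitions for the switch chain on the simple graphs with a prescribed degree vector
(problem P335).  This file holds the definitions only; the proofs are in
`Vale.Agent.Helper13.SwitchChain` and in `Vale.Agent.Helper13.KTV`.
-/

open Finset BigOperators

namespace Vale.Agent.Helper13.Switch

open Classical

variable {n : ℕ}

/-- the graph obtained from `G` by deleting the edges `ab`, `cd` and inserting `ac`, `bd` -/
def switchGraph (G : SimpleGraph (Fin n)) (a b c d : Fin n) : SimpleGraph (Fin n) :=
  G.deleteEdges {s(a, b), s(c, d)} ⊔ SimpleGraph.fromEdgeSet {s(a, c), s(b, d)}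

/-- the switch on a, b, c, d is allowed in `G`: the edges `ab`, `cd` are present and the
edges `ac`, `bd` are absent -/
def Allowed (G : SimpleGraph (Fin n)) (a b c d : Fin n) : Prop :=
  G.Adj a b ∧ G.Adj c d ∧ ¬ G.Adj a c ∧ ¬ G.Adj b d

/-- the simple graphs on `Fin n` with degree vector `d` -/
abbrev Realization (n : ℕ) (d : Fin n → ℕ) : Type :=
  {G : SimpleGraph (Fin n) // ∀ i, G.degree i = d i}

/-- one move: apply the switch on the ordered 4-tuple `t` of distinct vertices if it is
allowed, otherwise stay put -/
noncomputable def move (G : SimpleGraph (Fin n)) (t : Fin 4 ↪ Fin n) : SimpleGraph (Fin n) :=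
  if Allowed G (t 0) (t 1) (t 2) (t 3) then switchGraph G (t 0) (t 1) (t 2) (t 3) else G

/-- the transition matrix of the switch chain on the realizations of `d`: with probability
`1/2` stay put, otherwise pick a uniformly random ordered 4-tuple of distinct vertices and
make the corresponding move.  (Each 4-set carries 24 ordered tuples and each ordered pair of
distinct perfect matchings on it is named by 4 of them, so this is the chain that picks a
uniform 4-set and then a uniform ordered pair of distinct perfect matchings on it.) -/
noncomputable def switchChain (n : ℕ) (d : Fin n → ℕ) :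
    Matrix (Realization n d) (Realization n d) ℝ :=
  fun G G' => (1 / 2 : ℝ) * (if G = G' then 1 else 0)
    + (1 / 2 : ℝ) * ((Finset.univ.filter fun t : Fin 4 ↪ Fin n => move G.1 t = G'.1).card : ℝ)
      / (Fintype.card (Fin 4 ↪ Fin n) : ℝ)

/-- the mixing time: least `t` such that from every start the `t`-step law is within total
variation distance `1/4` of the uniform law -/
noncomputable def tmix (n : ℕ) (d : Fin n → ℕ) : ℕ :=
  sInf {t : ℕ | ∀ G : Realization n d,
    (1 / 2 : ℝ) * ∑ G' : Realization n d,
      |(switchChain n d ^ t) G G' - 1 / (Fintype.card (Realization n d) : ℝ)| ≤ 1 / 4}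

/-- `G'` arises from `G` by one switch -/
def IsSwitch (G G' : SimpleGraph (Fin n)) : Prop :=
  ∃ a b c d : Fin n, a ≠ b ∧ a ≠ c ∧ a ≠ d ∧ b ≠ c ∧ b ≠ d ∧ c ≠ d ∧
    Allowed G a b c d ∧ G' = switchGraph G a b c d

end Vale.Agent.Helper13.Switch

namespace Vale.Agent.Helper13.Split

variable {n : ℕ}

/-- `G` is split along `A`: `A` is a clique and its complement is independent -/
def SplitAlong (A : Finset (Fin n)) (G : SimpleGraph (Fin n)) : Prop :=
  (∀ u ∈ A, ∀ v ∈ A, u ≠ v → G.Adj u v) ∧ (∀ u, u ∉ A → ∀ v, v ∉ A → ¬ G.Adj u v)

end Vale.Agent.Helper13.Split
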