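import Mathlib
import Vale.Agent.Helper13.Mixing
import Vale.Agent.Helper13.SwitchDefs

open Finset BigOperators

namespace Vale.Agent.Helper13.Switch

open Classical

variable {n : ℕ}

lemma switchGraph_adj (G : SimpleGraph (Fin n)) (a b c d x y : Fin n) :
    (switchGraph G a b c d).Adj x y ↔
      (G.Adj x y ∧ ¬ ((x = a ∧ y = b) ∨ (x = b ∧ y = a)) ∧ ¬ ((x = c ∧ y = d) ∨ (x = d ∧ y = c)))
      ∨ ((((x = a ∧ y = c) ∨ (x = c ∧ y = a)) ∨ ((x = b ∧ y = d) ∨ (x = d ∧ y = b))) ∧ x ≠ y) := by
  unfold switchGraph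
  simp only [SimpleGraph.sup_adj, SimpleGraph.deleteEdges_adj, SimpleGraph.fromEdgeSet_adj,
    Set.mem_insert_iff, Set.mem_singleton_iff, Sym2.eq_iff, not_or]

lemma switchGraph_perm1 (G : SimpleGraph (Fin n)) (a b c d : Fin n) :
    switchGraph G a b c d = switchGraph G b a d c := by
  unfold switchGraph
  rw [Sym2.eq_swap (a := a) (b := b), Sym2.eq_swap (a := c) (b := d),
    Set.pair_comm s(a, c) s(b, d)]

lemma switchGraph_perm2 (G : SimpleGraph (Fin n)) (a b c d : Fin n) :
    switchGraph G a b c d = switchGraph G c d a b := by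
  unfold switchGraph
  rw [Set.pair_comm s(a, b) s(c, d), Sym2.eq_swap (a := a) (b := c),
    Sym2.eq_swap (a := b) (b := d)]

lemma allowed_perm1 {G : SimpleGraph (Fin n)} {a b c d : Fin n} (h : Allowed G a b c d) :
    Allowed G b a d c := by
  obtain ⟨h1, h2, h3, h4⟩ := h
  exact ⟨h1.symm, h2.symm, h4, h3⟩

lemma allowed_perm2 {G : SimpleGraph (Fin n)} {a b c d : Fin n} (h : Allowed G a b c d) :
    Allowed G c d a b := by
  obtain ⟨h1, h2, h3, h4⟩ := h
  exact ⟨h2, h1, fun h => h3 h.symm, fun h => h4 h.symm⟩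

/-- the degree of the first vertex is preserved -/
lemma degree_first {G : SimpleGraph (Fin n)} {a b c d : Fin n} (h : Allowed G a b c d)
    (hab : a ≠ b) (hac : a ≠ c) (had : a ≠ d) :
    (switchGraph G a b c d).degree a = G.degree a := by
  obtain ⟨h1, h2, h3, h4⟩ := h
  have hN : (switchGraph G a b c d).neighborFinset a = insert c ((G.neighborFinset a).erase b) := by
    ext y
    rw [SimpleGraph.mem_neighborFinset, switchGraph_adj, Finset.mem_insert, Finset.mem_erase,
      SimpleGraph.mem_neighborFinset]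
    constructor
    · rintro (⟨hy, hn1, hn2⟩ | ⟨hy, hne⟩)
      · right
        refine ⟨fun hyb => hn1 (Or.inl ⟨rfl, hyb⟩), hy⟩
      · rcases hy with (⟨-, hh⟩ | ⟨hh, -⟩) | (⟨hh, -⟩ | ⟨hh, -⟩)
        · left; exact hh
        · exact absurd hh hac
        · exact absurd hh hab
        · exact absurd hh had
    · rintro (rfl | ⟨hyb, hy⟩)
      · right; exact ⟨Or.inl (Or.inl ⟨rfl, rfl⟩), hac⟩
      · left
        refine ⟨hy, ?_, ?_⟩
        · rintro (⟨-, hh⟩ | ⟨hh, -⟩)
          · exact hyb hh
          · exact hab hh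
        · rintro (⟨hh, -⟩ | ⟨hh, -⟩)
          · exact hac hh
          · exact had hh
  rw [← SimpleGraph.card_neighborFinset_eq_degree, ← SimpleGraph.card_neighborFinset_eq_degree, hN]
  have hb : b ∈ G.neighborFinset a := by
    rw [SimpleGraph.mem_neighborFinset]; exact h1
  have hc : c ∉ (G.neighborFinset a).erase b := by
    rw [Finset.mem_erase, SimpleGraph.mem_neighborFinset]
    rintro ⟨-, hh⟩; exact h3 hh
  rw [Finset.card_insert_of_notMem hc, Finset.card_erase_of_mem hb]
  have : 0 < (G.neighborFinset a).card := Finset.card_pos.mpr ⟨b, hb⟩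
  omega

/-- an allowed switch on four distinct vertices preserves all degrees -/
lemma degree_switch {G : SimpleGraph (Fin n)} {a b c d : Fin n} (h : Allowed G a b c d)
    (hab : a ≠ b) (hac : a ≠ c) (had : a ≠ d) (hbc : b ≠ c) (hbd : b ≠ d) (hcd : c ≠ d)
    (x : Fin n) : (switchGraph G a b c d).degree x = G.degree x := by
  by_cases hxa : x = a
  · subst hxa; exact degree_first h hab hac had
  by_cases hxb : x = b
  · subst hxb
    rw [switchGraph_perm1]
    exact degree_first (allowed_perm1 h) hab.symm hbd hbc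
  by_cases hxc : x = c
  · subst hxc
    rw [switchGraph_perm2]
    exact degree_first (allowed_perm2 h) hcd hac.symm hbc.symm
  by_cases hxd : x = d
  · subst hxd
    rw [switchGraph_perm2, switchGraph_perm1]
    exact degree_first (allowed_perm1 (allowed_perm2 h)) hcd.symm hbd.symm had.symm
  have hN : (switchGraph G a b c d).neighborFinset x = G.neighborFinset x := by
    ext y
    rw [SimpleGraph.mem_neighborFinset, switchGraph_adj, SimpleGraph.mem_neighborFinset]
    constructor
    · rintro (⟨hy, -, -⟩ | ⟨hy, -⟩)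
      · exact hy
      · rcases hy with (⟨hh, -⟩ | ⟨hh, -⟩) | (⟨hh, -⟩ | ⟨hh, -⟩)
        · exact absurd hh hxa
        · exact absurd hh hxc
        · exact absurd hh hxb
        · exact absurd hh hxd
    · intro hy
      left
      refine ⟨hy, ?_, ?_⟩
      · rintro (⟨hh, -⟩ | ⟨hh, -⟩)
        · exact hxa hh
        · exact hxb hh
      · rintro (⟨hh, -⟩ | ⟨hh, -⟩)
        · exact hxc hh
        · exact hxd hh
  rw [← SimpleGraph.card_neighborFinset_eq_degree, ← SimpleGraph.card_neighborFinset_eq_degree, hN]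

/-- switching back: a, c, b, d is allowed in the switched graph and undoes the switch -/
lemma switch_back {G : SimpleGraph (Fin n)} {a b c d : Fin n} (h : Allowed G a b c d)
    (hab : a ≠ b) (hac : a ≠ c) (had : a ≠ d) (hbc : b ≠ c) (hbd : b ≠ d) (hcd : c ≠ d) :
    Allowed (switchGraph G a b c d) a c b d ∧
      switchGraph (switchGraph G a b c d) a c b d = G := by
  obtain ⟨h1, h2, h3, h4⟩ := h
  refine ⟨⟨?_, ?_, ?_, ?_⟩, ?_⟩
  · rw [switchGraph_adj]; right; exact ⟨Or.inl (Or.inl ⟨rfl, rfl⟩), hac⟩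
  · rw [switchGraph_adj]; right; exact ⟨Or.inr (Or.inl ⟨rfl, rfl⟩), hbd⟩
  · rw [switchGraph_adj]
    rintro (⟨-, hn, -⟩ | ⟨hy, -⟩)
    · exact hn (Or.inl ⟨rfl, rfl⟩)
    · rcases hy with (⟨-, hh⟩ | ⟨hh, -⟩) | (⟨hh, -⟩ | ⟨hh, -⟩)
      · exact hbc hh
      · exact hac hh
      · exact hab hh
      · exact had hh
  · rw [switchGraph_adj]
    rintro (⟨-, -, hn⟩ | ⟨hy, -⟩)
    · exact hn (Or.inl ⟨rfl, rfl⟩)
    · rcases hy with (⟨hh, -⟩ | ⟨-, hh⟩) | (⟨hh, -⟩ | ⟨hh, -⟩)
      · exact hac hh.symm
      · exact had hh.symm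
      · exact hbc hh.symm
      · exact hcd hh
  · ext x y
    rw [switchGraph_adj]
    constructor
    · rintro (⟨hy, hn1, hn2⟩ | ⟨hy, -⟩)
      · rw [switchGraph_adj] at hy
        rcases hy with ⟨hy, -, -⟩ | ⟨hy, hne⟩
        · exact hy
        · rcases hy with hy | hy
          · exact absurd hy hn1
          · exact absurd hy hn2
      · rcases hy with (⟨rfl, rfl⟩ | ⟨rfl, rfl⟩) | (⟨rfl, rfl⟩ | ⟨rfl, rfl⟩)
        · exact h1
        · exact h1.symm
        · exact h2
        · exact h2.symm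
    · intro hy
      by_cases hxy1 : (x = a ∧ y = b) ∨ (x = b ∧ y = a)
      · right; exact ⟨Or.inl hxy1, G.ne_of_adj hy⟩
      by_cases hxy2 : (x = c ∧ y = d) ∨ (x = d ∧ y = c)
      · right; exact ⟨Or.inr hxy2, G.ne_of_adj hy⟩
      left
      refine ⟨?_, ?_, ?_⟩
      · rw [switchGraph_adj]; left; exact ⟨hy, hxy1, hxy2⟩
      · rintro (⟨rfl, rfl⟩ | ⟨rfl, rfl⟩)
        · exact h3 hy
        · exact h3 hy.symm
      · rintro (⟨rfl, rfl⟩ | ⟨rfl, rfl⟩)
        · exact h4 hy
        · exact h4 hy.symm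


lemma emb_ne (t : Fin 4 ↪ Fin n) {i j : Fin 4} (h : i ≠ j) : t i ≠ t j :=
  fun hh => h (t.injective hh)

lemma move_degree (G : SimpleGraph (Fin n)) (t : Fin 4 ↪ Fin n) (x : Fin n) :
    (move G t).degree x = G.degree x := by
  by_cases h : Allowed G (t 0) (t 1) (t 2) (t 3)
  · have hm : move G t = switchGraph G (t 0) (t 1) (t 2) (t 3) := if_pos h
    rw [hm]
    exact degree_switch h (emb_ne t (by decide)) (emb_ne t (by decide)) (emb_ne t (by decide))
      (emb_ne t (by decide)) (emb_ne t (by decide)) (emb_ne t (by decide)) x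
  · have hm : move G t = G := if_neg h
    rw [hm]

/-- the move as a map on realizations -/
noncomputable def moveR {d : Fin n → ℕ} (G : Realization n d) (t : Fin 4 ↪ Fin n) :
    Realization n d :=
  ⟨move G.1 t, fun i => by rw [move_degree]; exact G.2 i⟩

section chain

variable {d : Fin n → ℕ}

lemma card_emb_pos (hn : 4 ≤ n) : (0 : ℝ) < (Fintype.card (Fin 4 ↪ Fin n) : ℝ) := by
  rw [Fintype.card_embedding_eq]
  simp only [Fintype.card_fin]
  have : 0 < n.descFactorial 4 := Nat.descFactorial_pos.mpr hn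
  exact_mod_cast this

lemma chain_nonneg (G G' : Realization n d) : 0 ≤ switchChain n d G G' := by
  unfold switchChain
  have h1 : (0:ℝ) ≤ (if G = G' then 1 else 0) := by split_ifs <;> norm_num
  positivity

lemma chain_lazy (G : Realization n d) : 1 / 2 ≤ switchChain n d G G := by
  unfold switchChain
  rw [if_pos rfl]
  have : (0:ℝ) ≤ (1 / 2 : ℝ) * ((Finset.univ.filter fun t : Fin 4 ↪ Fin n =>
      move G.1 t = G.1).card : ℝ) / (Fintype.card (Fin 4 ↪ Fin n) : ℝ) := by positivity
  linarith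

lemma chain_row (hn : 4 ≤ n) (G : Realization n d) : ∑ G', switchChain n d G G' = 1 := by
  unfold switchChain
  rw [Finset.sum_add_distrib, ← Finset.mul_sum, Finset.sum_ite_eq, if_pos (Finset.mem_univ _),
    ← Finset.sum_div, ← Finset.mul_sum, ← Nat.cast_sum]
  have hfib : ∑ G' : Realization n d, (Finset.univ.filter fun t : Fin 4 ↪ Fin n =>
      move G.1 t = G'.1).card = Fintype.card (Fin 4 ↪ Fin n) := by
    have h := Finset.card_eq_sum_card_fiberwise (f := fun t : Fin 4 ↪ Fin n => moveR G t)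
      (s := Finset.univ) (t := Finset.univ) (fun _ _ => Finset.mem_coe.mpr (Finset.mem_univ _))
    rw [Finset.card_univ] at h
    rw [h]
    refine Finset.sum_congr rfl fun G' _ => ?_
    congr 1
    ext t
    simp only [Finset.mem_filter, Finset.mem_univ, true_and]
    unfold moveR
    rw [Subtype.ext_iff]
  rw [hfib]
  have := card_emb_pos hn
  field_simp
  ring

/-- swapping the middle two entries of a 4-tuple -/
noncomputable def midSwap (t : Fin 4 ↪ Fin n) : Fin 4 ↪ Fin n :=
  (Equiv.swap (1 : Fin 4) 2).toEmbedding.trans t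

lemma midSwap_midSwap (t : Fin 4 ↪ Fin n) : midSwap (midSwap t) = t := by
  ext i
  unfold midSwap
  simp

lemma midSwap_0 (t : Fin 4 ↪ Fin n) : midSwap t 0 = t 0 := by
  unfold midSwap; simp [Equiv.swap_apply_of_ne_of_ne]
lemma midSwap_1 (t : Fin 4 ↪ Fin n) : midSwap t 1 = t 2 := by
  unfold midSwap; simp
lemma midSwap_2 (t : Fin 4 ↪ Fin n) : midSwap t 2 = t 1 := by
  unfold midSwap; simp
lemma midSwap_3 (t : Fin 4 ↪ Fin n) : midSwap t 3 = t 3 := by
  unfold midSwap; simp [Equiv.swap_apply_of_ne_of_ne]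

lemma move_midSwap {G G' : SimpleGraph (Fin n)} (hne : G ≠ G') (t : Fin 4 ↪ Fin n)
    (h : move G t = G') : move G' (midSwap t) = G := by
  unfold move at h
  split_ifs at h with hA
  · have hb := switch_back hA (emb_ne t (by decide)) (emb_ne t (by decide))
      (emb_ne t (by decide)) (emb_ne t (by decide)) (emb_ne t (by decide)) (emb_ne t (by decide))
    rw [h] at hb
    unfold move
    rw [midSwap_0, midSwap_1, midSwap_2, midSwap_3, if_pos hb.1]
    exact hb.2
  · exact absurd h hne

lemma card_moves_symm {G G' : SimpleGraph (Fin n)} (hne : G ≠ G') :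
    (Finset.univ.filter fun t : Fin 4 ↪ Fin n => move G t = G').card
      = (Finset.univ.filter fun t : Fin 4 ↪ Fin n => move G' t = G).card := by
  refine Finset.card_bij' (fun t _ => midSwap t) (fun t _ => midSwap t) ?_ ?_ ?_ ?_
  · intro t ht
    simp only [Finset.mem_filter, Finset.mem_univ, true_and] at ht ⊢
    exact move_midSwap hne t ht
  · intro t ht
    simp only [Finset.mem_filter, Finset.mem_univ, true_and] at ht ⊢
    exact move_midSwap (Ne.symm hne) t ht
  · intro t _; exact midSwap_midSwap t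
  · intro t _; exact midSwap_midSwap t

lemma chain_symm (G G' : Realization n d) : switchChain n d G G' = switchChain n d G' G := by
  by_cases h : G = G'
  · subst h; rfl
  · unfold switchChain
    have hne : G.1 ≠ G'.1 := fun hh => h (Subtype.ext hh)
    rw [if_neg h, if_neg (Ne.symm h), card_moves_symm hne]


/-- the ordered 4-tuple a, b, c, d of distinct vertices as an embedding -/
def emb4 (a b c d : Fin n) (hab : a ≠ b) (hac : a ≠ c) (had : a ≠ d) (hbc : b ≠ c) (hbd : b ≠ d)
    (hcd : c ≠ d) : Fin 4 ↪ Fin n :=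
  ⟨![a, b, c, d], by
    intro i j hij
    fin_cases i <;> fin_cases j <;> simp_all [Matrix.cons_val_zero, Matrix.cons_val_one]⟩

lemma move_emb4 {G : SimpleGraph (Fin n)} {a b c d : Fin n} (hab : a ≠ b) (hac : a ≠ c)
    (had : a ≠ d) (hbc : b ≠ c) (hbd : b ≠ d) (hcd : c ≠ d) (h : Allowed G a b c d) :
    move G (emb4 a b c d hab hac had hbc hbd hcd) = switchGraph G a b c d := by
  unfold move
  have h0 : emb4 a b c d hab hac had hbc hbd hcd 0 = a := rfl
  have h1 : emb4 a b c d hab hac had hbc hbd hcd 1 = b := rfl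
  have h2 : emb4 a b c d hab hac had hbc hbd hcd 2 = c := rfl
  have h3 : emb4 a b c d hab hac had hbc hbd hcd 3 = d := rfl
  rw [h0, h1, h2, h3, if_pos h]

/-- a switch neighbour is reached by at least four ordered 4-tuples -/
lemma four_moves {G G' : SimpleGraph (Fin n)} (h : IsSwitch G G') :
    4 ≤ (Finset.univ.filter fun t : Fin 4 ↪ Fin n => move G t = G').card := by
  obtain ⟨a, b, c, d, hab, hac, had, hbc, hbd, hcd, hA, rfl⟩ := h
  set t1 := emb4 a b c d hab hac had hbc hbd hcd with ht1
  set t2 := emb4 b a d c hab.symm hbd hbc had hac hcd.symm with ht2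
  set t3 := emb4 c d a b hcd hac.symm hbc.symm had.symm hbd.symm hab with ht3
  set t4 := emb4 d c b a hcd.symm hbd.symm had.symm hbc.symm hac.symm hab.symm with ht4
  have e1 : t1 0 = a := rfl
  have e2 : t2 0 = b := rfl
  have e3 : t3 0 = c := rfl
  have e4 : t4 0 = d := rfl
  have hsub : ({t1, t2, t3, t4} : Finset (Fin 4 ↪ Fin n))
      ⊆ Finset.univ.filter fun t : Fin 4 ↪ Fin n => move G t = switchGraph G a b c d := by
    intro t ht
    simp only [Finset.mem_insert, Finset.mem_singleton] at ht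
    simp only [Finset.mem_filter, Finset.mem_univ, true_and]
    rcases ht with rfl | rfl | rfl | rfl
    · exact move_emb4 hab hac had hbc hbd hcd hA
    · rw [ht2, move_emb4 _ _ _ _ _ _ (allowed_perm1 hA), ← switchGraph_perm1]
    · rw [ht3, move_emb4 _ _ _ _ _ _ (allowed_perm2 hA), ← switchGraph_perm2]
    · rw [ht4, move_emb4 _ _ _ _ _ _ (allowed_perm1 (allowed_perm2 hA)), ← switchGraph_perm1,
        ← switchGraph_perm2]
  have hcard : ({t1, t2, t3, t4} : Finset (Fin 4 ↪ Fin n)).card = 4 := by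
    have n12 : t1 ≠ t2 := fun hh => hab (by rw [← e1, ← e2, hh])
    have n13 : t1 ≠ t3 := fun hh => hac (by rw [← e1, ← e3, hh])
    have n14 : t1 ≠ t4 := fun hh => had (by rw [← e1, ← e4, hh])
    have n23 : t2 ≠ t3 := fun hh => hbc (by rw [← e2, ← e3, hh])
    have n24 : t2 ≠ t4 := fun hh => hbd (by rw [← e2, ← e4, hh])
    have n34 : t3 ≠ t4 := fun hh => hcd (by rw [← e3, ← e4, hh])
    rw [Finset.card_insert_of_notMem, Finset.card_insert_of_notMem,
      Finset.card_insert_of_notMem, Finset.card_singleton]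
    · simpa using n34
    · simp only [Finset.mem_insert, Finset.mem_singleton, not_or]; exact ⟨n23, n24⟩
    · simp only [Finset.mem_insert, Finset.mem_singleton, not_or]; exact ⟨n12, n13, n14⟩
  calc 4 = ({t1, t2, t3, t4} : Finset (Fin 4 ↪ Fin n)).card := hcard.symm
    _ ≤ _ := Finset.card_le_card hsub

/-- the Dirichlet form of the chain dominates the switch energy -/
lemma chain_energy (hn : 4 ≤ n) (g : Realization n d → ℝ) :
    (2 / (Fintype.card (Fin 4 ↪ Fin n) : ℝ)) *
      ∑ G : Realization n d, ∑ G' : Realization n d,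
        (if IsSwitch G.1 G'.1 then (g G - g G') ^ 2 else 0)
    ≤ ∑ G : Realization n d, ∑ G' : Realization n d,
        switchChain n d G G' * (g G - g G') ^ 2 := by
  have hpos := card_emb_pos (n := n) hn
  rw [Finset.mul_sum]
  refine Finset.sum_le_sum fun G _ => ?_
  rw [Finset.mul_sum]
  refine Finset.sum_le_sum fun G' _ => ?_
  split_ifs with hsw
  · refine mul_le_mul_of_nonneg_right ?_ (sq_nonneg _)
    by_cases hGG : G = G'
    · -- cannot happen, but the bound holds anyway
      have := chain_lazy (d := d) G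
      rw [← hGG]
      have h4 := four_moves hsw
      unfold switchChain
      rw [if_pos rfl, ← hGG] at *
      have h4' : (4:ℝ) ≤ ((Finset.univ.filter fun t : Fin 4 ↪ Fin n =>
          move G.1 t = G.1).card : ℝ) := by exact_mod_cast h4
      have : (2:ℝ) / (Fintype.card (Fin 4 ↪ Fin n) : ℝ) ≤ (1 / 2 : ℝ) *
          ((Finset.univ.filter fun t : Fin 4 ↪ Fin n => move G.1 t = G.1).card : ℝ)
            / (Fintype.card (Fin 4 ↪ Fin n) : ℝ) := by
        rw [div_le_div_iff_of_pos_right hpos]; linarith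
      linarith
    · unfold switchChain
      rw [if_neg hGG]
      have h4 := four_moves hsw
      have h4' : (4:ℝ) ≤ ((Finset.univ.filter fun t : Fin 4 ↪ Fin n =>
          move G.1 t = G'.1).card : ℝ) := by exact_mod_cast h4
      have : (2:ℝ) / (Fintype.card (Fin 4 ↪ Fin n) : ℝ) ≤ (1 / 2 : ℝ) *
          ((Finset.univ.filter fun t : Fin 4 ↪ Fin n => move G.1 t = G'.1).card : ℝ)
            / (Fintype.card (Fin 4 ↪ Fin n) : ℝ) := by
        rw [div_le_div_iff_of_pos_right hpos]; linarith
      linarith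
  · rw [mul_zero]
    exact mul_nonneg (chain_nonneg G G') (sq_nonneg _)


lemma card_emb (n : ℕ) : (Fintype.card (Fin 4 ↪ Fin n) : ℝ) = 24 * (n.choose 4 : ℝ) := by
  rw [Fintype.card_embedding_eq]
  simp only [Fintype.card_fin]
  rw [Nat.descFactorial_eq_factorial_mul_choose]
  push_cast
  norm_num [Nat.factorial]

/-- Spectral gap of the switch graph implies a total variation bound for the switch chain:
if the switch-graph Laplacian satisfies `γ * ‖g‖² ≤ ⟨g, L g⟩` on mean-zero functions, then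
from every start the `T`-step law is within total variation distance `1/4` of the uniform
law, for every `T` with `log (2 * sqrt N) ≤ γ / (12 * C(n,4)) * T`. -/
theorem tv_le_of_gap (hn : 4 ≤ n) (d : Fin n → ℕ) (γ : ℝ)
    (hgap : ∀ g : Realization n d → ℝ, ∑ G, g G = 0 →
      γ * ∑ G, g G ^ 2 ≤ (1 / 2 : ℝ) * ∑ G : Realization n d, ∑ G' : Realization n d,
        (if IsSwitch G.1 G'.1 then (g G - g G') ^ 2 else 0))
    (T : ℕ)
    (hT : Real.log (2 * Real.sqrt (Fintype.card (Realization n d)))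
      ≤ γ / (12 * (n.choose 4 : ℝ)) * T)
    (G : Realization n d) :
    (1 / 2 : ℝ) * ∑ G' : Realization n d,
      |(switchChain n d ^ T) G G' - 1 / (Fintype.card (Realization n d) : ℝ)| ≤ 1 / 4 := by
  have hpos := card_emb_pos (n := n) hn
  have hcard := card_emb n
  have hP : ∀ g : Realization n d → ℝ, ∑ x, g x = 0 →
      2 * (γ / (12 * (n.choose 4 : ℝ))) * Mixing.ssq g
        ≤ ∑ x, ∑ y, switchChain n d x y * (g x - g y) ^ 2 := by
    intro g hg
    have h1 := chain_energy (d := d) hn g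
    have h2 := hgap g hg
    have h3 : (0:ℝ) ≤ 2 / (Fintype.card (Fin 4 ↪ Fin n) : ℝ) := by positivity
    have h4 : 2 * (γ / (12 * (n.choose 4 : ℝ))) * Mixing.ssq g
        = (2 / (Fintype.card (Fin 4 ↪ Fin n) : ℝ)) * (2 * (γ * ∑ G, g G ^ 2)) := by
      rw [hcard]
      have hc : (0:ℝ) < (n.choose 4 : ℝ) := by
        have : 0 < n.choose 4 := Nat.choose_pos hn
        exact_mod_cast this
      unfold Mixing.ssq
      field_simp
      ring
    rw [h4]
    refine le_trans (mul_le_mul_of_nonneg_left ?_ h3) h1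
    linarith
  have htv := Mixing.tv_bound (switchChain n d) chain_symm chain_nonneg (chain_row hn)
    chain_lazy (γ / (12 * (n.choose 4 : ℝ))) hP T G
  refine htv.trans ?_
  have hN : (1:ℝ) ≤ (Fintype.card (Realization n d) : ℝ) := by
    have : 0 < Fintype.card (Realization n d) := Fintype.card_pos_iff.mpr ⟨G⟩
    exact_mod_cast this
  have hs : (0:ℝ) < Real.sqrt (Fintype.card (Realization n d)) := Real.sqrt_pos.mpr (by linarith)
  have h2s : (0:ℝ) < 2 * Real.sqrt (Fintype.card (Realization n d)) := by positivity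
  have hexp : Real.exp (-(γ / (12 * (n.choose 4 : ℝ))) * T)
      ≤ 1 / (2 * Real.sqrt (Fintype.card (Realization n d))) := by
    have e1 : 1 / (2 * Real.sqrt (Fintype.card (Realization n d)))
        = Real.exp (-Real.log (2 * Real.sqrt (Fintype.card (Realization n d)))) := by
      rw [Real.exp_neg, Real.exp_log h2s, one_div]
    rw [e1]
    apply Real.exp_le_exp.mpr
    linarith
  have : Real.sqrt (Fintype.card (Realization n d)) *
      Real.exp (-(γ / (12 * (n.choose 4 : ℝ))) * T) ≤ 1 / 2 := by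
    calc Real.sqrt (Fintype.card (Realization n d)) *
        Real.exp (-(γ / (12 * (n.choose 4 : ℝ))) * T)
        ≤ Real.sqrt (Fintype.card (Realization n d)) *
          (1 / (2 * Real.sqrt (Fintype.card (Realization n d)))) :=
          mul_le_mul_of_nonneg_left hexp hs.le
      _ = 1 / 2 := by field_simp
  linarith

/-- Spectral gap of the switch graph implies a mixing-time bound for the switch chain:
`tmix n d ≤ T` for every `T` with `log (2 * sqrt N) ≤ γ / (12 * C(n,4)) * T`. -/
theorem tmix_le_of_gap (hn : 4 ≤ n) (d : Fin n → ℕ) (γ : ℝ)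
    (hgap : ∀ g : Realization n d → ℝ, ∑ G, g G = 0 →
      γ * ∑ G, g G ^ 2 ≤ (1 / 2 : ℝ) * ∑ G : Realization n d, ∑ G' : Realization n d,
        (if IsSwitch G.1 G'.1 then (g G - g G') ^ 2 else 0))
    (T : ℕ)
    (hT : Real.log (2 * Real.sqrt (Fintype.card (Realization n d)))
      ≤ γ / (12 * (n.choose 4 : ℝ)) * T) :
    tmix n d ≤ T :=
  Nat.sInf_le fun G => tv_le_of_gap hn d γ hgap T hT G

lemma card_graphs_le (n : ℕ) : Fintype.card (SimpleGraph (Fin n)) ≤ 2 ^ (n * n) := by
  have hinj : Function.Injective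
      (fun G : SimpleGraph (Fin n) => fun p : Fin n × Fin n => decide (G.Adj p.1 p.2)) := by
    intro G H h
    ext x y
    have := congrFun h (x, y)
    simpa using this
  have h := Fintype.card_le_of_injective _ hinj
  simpa using h

lemma card_realization_le (n : ℕ) (d : Fin n → ℕ) :
    Fintype.card (Realization n d) ≤ 2 ^ (n * n) :=
  (Fintype.card_subtype_le _).trans (card_graphs_le n)

lemma log_card_le (hn : 4 ≤ n) (d : Fin n → ℕ) :
    Real.log (2 * Real.sqrt (Fintype.card (Realization n d))) ≤ (n : ℝ) ^ 2 := by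
  have hle : (Fintype.card (Realization n d) : ℝ) ≤ (2:ℝ) ^ (n * n) := by
    exact_mod_cast card_realization_le n d
  have hsq : Real.sqrt (Fintype.card (Realization n d)) ≤ (2:ℝ) ^ (n * n) := by
    have h1 : Real.sqrt (Fintype.card (Realization n d)) ≤ Real.sqrt ((2:ℝ) ^ (n * n)) :=
      Real.sqrt_le_sqrt hle
    have h2 : Real.sqrt ((2:ℝ) ^ (n * n)) ≤ (2:ℝ) ^ (n * n) := by
      rw [Real.sqrt_le_left (by positivity)]
      have : (1:ℝ) ≤ (2:ℝ) ^ (n * n) := one_le_pow₀ (by norm_num)
      nlinarith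
    exact h1.trans h2
  have h3 : 2 * Real.sqrt (Fintype.card (Realization n d)) ≤ (2:ℝ) ^ (n * n + 1) := by
    rw [pow_succ]; linarith
  by_cases hz : 2 * Real.sqrt (Fintype.card (Realization n d)) = 0
  · rw [hz, Real.log_zero]; positivity
  have hpos : 0 < 2 * Real.sqrt (Fintype.card (Realization n d)) :=
    lt_of_le_of_ne (by positivity) (Ne.symm hz)
  have h4 : Real.log (2 * Real.sqrt (Fintype.card (Realization n d)))
      ≤ Real.log ((2:ℝ) ^ (n * n + 1)) := Real.log_le_log hpos h3
  rw [Real.log_pow] at h4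
  have hl2 : Real.log 2 ≤ 0.7 := by
    have := Real.log_two_lt_d9; linarith
  have hl2' : 0 ≤ Real.log 2 := Real.log_nonneg (by norm_num)
  have hn' : (4:ℝ) ≤ n := by exact_mod_cast hn
  push_cast at h4
  nlinarith

/-- polynomial mixing from a spectral gap `γ > 0` of the switch graph -/
theorem tmix_poly_of_gap (hn : 4 ≤ n) (d : Fin n → ℕ) (γ : ℝ) (hγ : 0 < γ)
    (hgap : ∀ g : Realization n d → ℝ, ∑ G, g G = 0 →
      γ * ∑ G, g G ^ 2 ≤ (1 / 2 : ℝ) * ∑ G : Realization n d, ∑ G' : Realization n d,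
        (if IsSwitch G.1 G'.1 then (g G - g G') ^ 2 else 0)) :
    tmix n d ≤ ⌈12 * (n.choose 4 : ℝ) * (n : ℝ) ^ 2 / γ⌉₊ := by
  apply tmix_le_of_gap hn d γ hgap
  refine (log_card_le hn d).trans ?_
  have hc : (0:ℝ) < (n.choose 4 : ℝ) := by
    have : 0 < n.choose 4 := Nat.choose_pos hn
    exact_mod_cast this
  have h1 : 12 * (n.choose 4 : ℝ) * (n : ℝ) ^ 2 / γ
      ≤ (⌈12 * (n.choose 4 : ℝ) * (n : ℝ) ^ 2 / γ⌉₊ : ℝ) := Nat.le_ceil _
  have h2 : (n : ℝ) ^ 2 = γ / (12 * (n.choose 4 : ℝ)) * (12 * (n.choose 4 : ℝ) * (n : ℝ) ^ 2 / γ) := by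
    field_simp
  calc (n : ℝ) ^ 2 = γ / (12 * (n.choose 4 : ℝ)) * (12 * (n.choose 4 : ℝ) * (n : ℝ) ^ 2 / γ) := h2
    _ ≤ γ / (12 * (n.choose 4 : ℝ)) * (⌈12 * (n.choose 4 : ℝ) * (n : ℝ) ^ 2 / γ⌉₊ : ℝ) :=
      mul_le_mul_of_nonneg_left h1 (by positivity)

/-- total variation form of the polynomial mixing bound: from a spectral gap `γ > 0` of the
switch graph, every `t` with `12 * C(n,4) * n ^ 2 / γ ≤ t` steps bring the chain within total
variation distance `1/4` of uniform, from every start -/
theorem tv_poly_of_gap (hn : 4 ≤ n) (d : Fin n → ℕ) (γ : ℝ) (hγ : 0 < γ)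
    (hgap : ∀ g : Realization n d → ℝ, ∑ G, g G = 0 →
      γ * ∑ G, g G ^ 2 ≤ (1 / 2 : ℝ) * ∑ G : Realization n d, ∑ G' : Realization n d,
        (if IsSwitch G.1 G'.1 then (g G - g G') ^ 2 else 0))
    (t : ℕ) (ht : 12 * (n.choose 4 : ℝ) * (n : ℝ) ^ 2 / γ ≤ (t : ℝ))
    (G : Realization n d) :
    (1 / 2 : ℝ) * ∑ G' : Realization n d,
      |(switchChain n d ^ t) G G' - 1 / (Fintype.card (Realization n d) : ℝ)| ≤ 1 / 4 := by
  apply tv_le_of_gap hn d γ hgap
  refine (log_card_le hn d).trans ?_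
  have hc : (0:ℝ) < (n.choose 4 : ℝ) := by
    have : 0 < n.choose 4 := Nat.choose_pos hn
    exact_mod_cast this
  have h2 : (n : ℝ) ^ 2 = γ / (12 * (n.choose 4 : ℝ)) * (12 * (n.choose 4 : ℝ) * (n : ℝ) ^ 2 / γ) := by
    field_simp
  calc (n : ℝ) ^ 2 = γ / (12 * (n.choose 4 : ℝ)) * (12 * (n.choose 4 : ℝ) * (n : ℝ) ^ 2 / γ) := h2
    _ ≤ γ / (12 * (n.choose 4 : ℝ)) * (t : ℝ) :=
      mul_le_mul_of_nonneg_left ht (by positivity)

end chain

/-- if two allowed switches of `G` give the same graph, the second 4-tuple is one of the four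
relabelings of the first -/
lemma allowed_same_target {G : SimpleGraph (Fin n)} {a b c d a' b' c' d' : Fin n}
    (hab : a ≠ b) (hac : a ≠ c) (had : a ≠ d) (hbc : b ≠ c) (hbd : b ≠ d) (hcd : c ≠ d)
    (hab' : a' ≠ b') (hac' : a' ≠ c') (had' : a' ≠ d') (hbc' : b' ≠ c') (hbd' : b' ≠ d')
    (hcd' : c' ≠ d')
    (h : Allowed G a b c d) (h' : Allowed G a' b' c' d')
    (he : switchGraph G a' b' c' d' = switchGraph G a b c d) :
    (a' = a ∧ b' = b ∧ c' = c ∧ d' = d) ∨ (a' = b ∧ b' = a ∧ c' = d ∧ d' = c)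
      ∨ (a' = c ∧ b' = d ∧ c' = a ∧ d' = b) ∨ (a' = d ∧ b' = c ∧ c' = b ∧ d' = a) := by
  obtain ⟨hb1, hb2, hb3, hb4⟩ := (switch_back h' hab' hac' had' hbc' hbd' hcd').1
  rw [he] at hb1 hb2 hb3 hb4
  obtain ⟨g1, g2, g3, g4⟩ := h'
  -- the removed edge a'b'
  have r1 : (a' = a ∧ b' = b) ∨ (a' = b ∧ b' = a) ∨ (a' = c ∧ b' = d) ∨ (a' = d ∧ b' = c) := by
    rw [switchGraph_adj] at hb3
    by_contra hcon
    apply hb3
    left
    refine ⟨g1, fun hx => hcon ?_, fun hx => hcon ?_⟩
    · rcases hx with hx | hx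
      · exact Or.inl hx
      · exact Or.inr (Or.inl hx)
    · rcases hx with hx | hx
      · exact Or.inr (Or.inr (Or.inl hx))
      · exact Or.inr (Or.inr (Or.inr hx))
  -- the removed edge c'd'
  have r2 : (c' = a ∧ d' = b) ∨ (c' = b ∧ d' = a) ∨ (c' = c ∧ d' = d) ∨ (c' = d ∧ d' = c) := by
    rw [switchGraph_adj] at hb4
    by_contra hcon
    apply hb4
    left
    refine ⟨g2, fun hx => hcon ?_, fun hx => hcon ?_⟩
    · rcases hx with hx | hx
      · exact Or.inl hx
      · exact Or.inr (Or.inl hx)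
    · rcases hx with hx | hx
      · exact Or.inr (Or.inr (Or.inl hx))
      · exact Or.inr (Or.inr (Or.inr hx))
  -- the added edge a'c'
  have r3 : (a' = a ∧ c' = c) ∨ (a' = c ∧ c' = a) ∨ (a' = b ∧ c' = d) ∨ (a' = d ∧ c' = b) := by
    rw [switchGraph_adj] at hb1
    rcases hb1 with ⟨hh, -, -⟩ | ⟨hh, -⟩
    · exact absurd hh g3
    · rcases hh with (hx | hx) | (hx | hx)
      · exact Or.inl hx
      · exact Or.inr (Or.inl hx)
      · exact Or.inr (Or.inr (Or.inl hx))
      · exact Or.inr (Or.inr (Or.inr hx))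
  rcases r1 with ⟨e1, e2⟩ | ⟨e1, e2⟩ | ⟨e1, e2⟩ | ⟨e1, e2⟩ <;>
  rcases r3 with ⟨e3, e4⟩ | ⟨e3, e4⟩ | ⟨e3, e4⟩ | ⟨e3, e4⟩ <;>
  rcases r2 with ⟨e5, e6⟩ | ⟨e5, e6⟩ | ⟨e5, e6⟩ | ⟨e5, e6⟩ <;>
  subst_vars <;> simp_all

lemma switchGraph_ne {G : SimpleGraph (Fin n)} {a b c d : Fin n} (h : Allowed G a b c d)
    (hab : a ≠ b) (hac : a ≠ c) (had : a ≠ d) (hbc : b ≠ c) (hbd : b ≠ d) (hcd : c ≠ d) :
    switchGraph G a b c d ≠ G := by
  intro he
  have hb := (switch_back h hab hac had hbc hbd hcd).1
  rw [he] at hb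
  exact hb.2.2.1 h.1

/-- a move that changes the graph is a switch -/
lemma isSwitch_of_move {G G' : SimpleGraph (Fin n)} (hne : G ≠ G') (t : Fin 4 ↪ Fin n)
    (h : move G t = G') : IsSwitch G G' := by
  unfold move at h
  split_ifs at h with hA
  · exact ⟨t 0, t 1, t 2, t 3, emb_ne t (by decide), emb_ne t (by decide), emb_ne t (by decide),
      emb_ne t (by decide), emb_ne t (by decide), emb_ne t (by decide), hA, h.symm⟩
  · exact absurd h hne

/-- a switch neighbour is reached by exactly four ordered 4-tuples -/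
lemma moves_eq_four {G G' : SimpleGraph (Fin n)} (h : IsSwitch G G') :
    (Finset.univ.filter fun t : Fin 4 ↪ Fin n => move G t = G').card = 4 := by
  apply le_antisymm _ (four_moves h)
  obtain ⟨a, b, c, d, hab, hac, had, hbc, hbd, hcd, hA, rfl⟩ := h
  have hne := switchGraph_ne hA hab hac had hbc hbd hcd
  set t1 := emb4 a b c d hab hac had hbc hbd hcd with ht1
  set t2 := emb4 b a d c hab.symm hbd hbc had hac hcd.symm with ht2
  set t3 := emb4 c d a b hcd hac.symm hbc.symm had.symm hbd.symm hab with ht3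
  set t4 := emb4 d c b a hcd.symm hbd.symm had.symm hbc.symm hac.symm hab.symm with ht4
  have hsub : (Finset.univ.filter fun t : Fin 4 ↪ Fin n => move G t = switchGraph G a b c d)
      ⊆ ({t1, t2, t3, t4} : Finset (Fin 4 ↪ Fin n)) := by
    intro t ht
    simp only [Finset.mem_filter, Finset.mem_univ, true_and] at ht
    simp only [Finset.mem_insert, Finset.mem_singleton]
    unfold move at ht
    split_ifs at ht with hA'
    · have key := allowed_same_target hab hac had hbc hbd hcd (emb_ne t (by decide))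
        (emb_ne t (by decide)) (emb_ne t (by decide)) (emb_ne t (by decide))
        (emb_ne t (by decide)) (emb_ne t (by decide)) hA hA' ht
      rcases key with ⟨e0, e1, e2, e3⟩ | ⟨e0, e1, e2, e3⟩ | ⟨e0, e1, e2, e3⟩ | ⟨e0, e1, e2, e3⟩
      · left
        apply Function.Embedding.ext
        intro i
        fin_cases i
        · exact e0
        · exact e1
        · exact e2
        · exact e3
      · right; left
        apply Function.Embedding.ext
        intro i
        fin_cases i
        · exact e0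
        · exact e1
        · exact e2
        · exact e3
      · right; right; left
        apply Function.Embedding.ext
        intro i
        fin_cases i
        · exact e0
        · exact e1
        · exact e2
        · exact e3
      · right; right; right
        apply Function.Embedding.ext
        intro i
        fin_cases i
        · exact e0
        · exact e1
        · exact e2
        · exact e3
    · exact absurd ht.symm hne
  calc _ ≤ ({t1, t2, t3, t4} : Finset (Fin 4 ↪ Fin n)).card := Finset.card_le_card hsub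
    _ ≤ 4 := Finset.card_le_four

section probs

variable {d : Fin n → ℕ}

/-- every switch has transition probability `1 / (12 * C(n,4))`, that is
one half times `1 / C(n,4)` times one sixth, as in the description of the chain by a uniformly random
4-set and a uniformly random ordered pair of distinct perfect matchings on it -/
theorem switchChain_of_switch {G G' : Realization n d} (h : IsSwitch G.1 G'.1) :
    switchChain n d G G' = 1 / (12 * (n.choose 4 : ℝ)) := by
  have hne : G ≠ G' := by
    intro he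
    obtain ⟨a, b, c, d', hab, hac, had, hbc, hbd, hcd, hA, he'⟩ := h
    rw [← he] at he'
    exact switchGraph_ne hA hab hac had hbc hbd hcd he'.symm
  unfold switchChain
  rw [if_neg hne, moves_eq_four h, card_emb]
  push_cast
  ring

/-- distinct realizations that are not related by a switch have transition probability `0` -/
theorem switchChain_of_not_switch {G G' : Realization n d} (hne : G ≠ G')
    (h : ¬ IsSwitch G.1 G'.1) : switchChain n d G G' = 0 := by
  unfold switchChain
  have hne' : G.1 ≠ G'.1 := fun hh => hne (Subtype.ext hh)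
  have hempty : (Finset.univ.filter fun t : Fin 4 ↪ Fin n => move G.1 t = G'.1) = ∅ := by
    rw [Finset.filter_eq_empty_iff]
    intro t _ ht
    exact h (isSwitch_of_move hne' t ht)
  rw [if_neg hne, hempty]
  simp

end probs


end Vale.Agent.Helper13.Switch
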