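import Vale.Agent.Lead.KTVLiteralDefs

/-!
Perfect matchings of the complete graph on a 4-element vertex set (pieces L1, L2 of the literal
form of the switch chain of P335): they are exactly the three pairings, and there are exactly
six ordered pairs of distinct ones.
-/

namespace Vale.Agent.Helper13.KTVLiteralPM

open Vale.Agent.Lead.KTVLiteral

variable {n : ℕ}

/-- `{ab, ce}` is a perfect matching of the complete graph on `{a, b, c, e}`. -/
theorem pm_mk {S : Finset (Fin n)} {a b c e : Fin n} (hS : S = {a, b, c, e})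
    (hab : a ≠ b) (hac : a ≠ c) (hae : a ≠ e) (hbc : b ≠ c) (hbe : b ≠ e) (hce : c ≠ e) :
    PM S {s(a, b), s(c, e)} := by
  subst hS
  refine ⟨?_, ?_⟩
  · intro f hf
    simp only [Finset.mem_insert, Finset.mem_singleton] at hf
    rcases hf with rfl | rfl
    · refine ⟨by simpa using hab, ?_⟩
      intro v hv
      rcases Sym2.mem_iff.mp hv with rfl | rfl <;> simp
    · refine ⟨by simpa using hce, ?_⟩
      intro v hv
      rcases Sym2.mem_iff.mp hv with rfl | rfl <;> simp
  · intro v hv
    simp only [Finset.mem_insert, Finset.mem_singleton] at hv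
    rcases hv with rfl | rfl | rfl | rfl
    · refine ⟨s(v, b), ⟨by simp, by simp⟩, ?_⟩
      rintro f ⟨hf, hvf⟩
      simp only [Finset.mem_insert, Finset.mem_singleton] at hf
      rcases hf with rfl | rfl
      · rfl
      · rcases Sym2.mem_iff.mp hvf with h | h
        · exact absurd h hac
        · exact absurd h hae
    · refine ⟨s(a, v), ⟨by simp, by simp⟩, ?_⟩
      rintro f ⟨hf, hvf⟩
      simp only [Finset.mem_insert, Finset.mem_singleton] at hf
      rcases hf with rfl | rfl
      · rfl
      · rcases Sym2.mem_iff.mp hvf with h | h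
        · exact absurd h hbc
        · exact absurd h hbe
    · refine ⟨s(v, e), ⟨by simp, by simp⟩, ?_⟩
      rintro f ⟨hf, hvf⟩
      simp only [Finset.mem_insert, Finset.mem_singleton] at hf
      rcases hf with rfl | rfl
      · rcases Sym2.mem_iff.mp hvf with h | h
        · exact absurd h.symm hac
        · exact absurd h.symm hbc
      · rfl
    · refine ⟨s(c, v), ⟨by simp, by simp⟩, ?_⟩
      rintro f ⟨hf, hvf⟩
      simp only [Finset.mem_insert, Finset.mem_singleton] at hf
      rcases hf with rfl | rfl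
      · rcases Sym2.mem_iff.mp hvf with h | h
        · exact absurd h.symm hae
        · exact absurd h.symm hbe
      · rfl

/-- A perfect matching of the complete graph on `{a, b, c, e}` that contains `ab` is `{ab, ce}`. -/
theorem pm_eq_of_mem {S : Finset (Fin n)} {a b c e : Fin n} (hS : S = {a, b, c, e})
    (hab : a ≠ b) (hac : a ≠ c) (hae : a ≠ e) (hbc : b ≠ c) (hbe : b ≠ e) (hce : c ≠ e)
    {F : Finset (Sym2 (Fin n))} (hF : PM S F) (h1 : s(a, b) ∈ F) :
    F = {s(a, b), s(c, e)} := by
  have haS : a ∈ S := by subst hS; simp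
  have hbS : b ∈ S := by subst hS; simp
  have hcS : c ∈ S := by subst hS; simp
  have heS : e ∈ S := by subst hS; simp
  have ha := hF.2 a haS
  have hb := hF.2 b hbS
  have hc := hF.2 c hcS
  have he := hF.2 e heS
  -- the edge at `c` is `ce`
  have hce' : s(c, e) ∈ F := by
    obtain ⟨fc, ⟨hfc, hcfc⟩, -⟩ := hc
    obtain ⟨y, rfl⟩ := Sym2.mem_iff_exists.mp hcfc
    have h0 := hF.1 _ hfc
    have hyS : y ∈ S := h0.2 y (Sym2.mem_mk_right c y)
    have hyc : c ≠ y := by simpa using h0.1
    rw [hS] at hyS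
    simp only [Finset.mem_insert, Finset.mem_singleton] at hyS
    rcases hyS with rfl | rfl | rfl | rfl
    · -- y = a : two edges at a
      have := ha.unique ⟨hfc, Sym2.mem_mk_right c y⟩ ⟨h1, Sym2.mem_mk_left y b⟩
      rcases Sym2.eq_iff.mp this with ⟨h, h'⟩ | ⟨h, -⟩
      · exact absurd h'.symm (h ▸ hbc)
      · exact absurd h.symm hbc
    · -- y = b : two edges at b
      have := hb.unique ⟨hfc, Sym2.mem_mk_right c y⟩ ⟨h1, Sym2.mem_mk_right a y⟩
      rcases Sym2.eq_iff.mp this with ⟨h, -⟩ | ⟨h, -⟩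
      · exact absurd h.symm hac
      · exact absurd h.symm hbc
    · exact absurd rfl hyc
    · exact hfc
  ext f
  simp only [Finset.mem_insert, Finset.mem_singleton]
  constructor
  · intro hf
    have h0 := hF.1 f hf
    induction f using Sym2.ind with
    | _ x y =>
      have hxS : x ∈ S := h0.2 x (Sym2.mem_mk_left x y)
      rw [hS] at hxS
      simp only [Finset.mem_insert, Finset.mem_singleton] at hxS
      rcases hxS with rfl | rfl | rfl | rfl
      · exact Or.inl (ha.unique ⟨hf, Sym2.mem_mk_left x y⟩ ⟨h1, Sym2.mem_mk_left x b⟩)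
      · exact Or.inl (hb.unique ⟨hf, Sym2.mem_mk_left x y⟩ ⟨h1, Sym2.mem_mk_right a x⟩)
      · exact Or.inr (hc.unique ⟨hf, Sym2.mem_mk_left x y⟩ ⟨hce', Sym2.mem_mk_left x e⟩)
      · exact Or.inr (he.unique ⟨hf, Sym2.mem_mk_left x y⟩ ⟨hce', Sym2.mem_mk_right c x⟩)
  · rintro (rfl | rfl)
    · exact h1
    · exact hce'

/-- [L1] The perfect matchings of the complete graph on a 4-set `{a, b, c, e}` are exactly the
three pairings `{ab, ce}`, `{ac, be}`, `{ae, bc}`. -/
theorem pm_iff {S : Finset (Fin n)} {a b c e : Fin n} (hS : S = {a, b, c, e})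
    (hab : a ≠ b) (hac : a ≠ c) (hae : a ≠ e) (hbc : b ≠ c) (hbe : b ≠ e) (hce : c ≠ e)
    (F : Finset (Sym2 (Fin n))) :
    PM S F ↔ F = {s(a, b), s(c, e)} ∨ F = {s(a, c), s(b, e)} ∨ F = {s(a, e), s(b, c)} := by
  have hS2 : S = {a, c, b, e} := by
    rw [hS]; ext v; simp only [Finset.mem_insert, Finset.mem_singleton]; tauto
  have hS3 : S = {a, e, b, c} := by
    rw [hS]; ext v; simp only [Finset.mem_insert, Finset.mem_singleton]; tauto
  constructor
  · intro hF
    have haS : a ∈ S := by rw [hS]; simp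
    obtain ⟨fa, ⟨hfa, hafa⟩, -⟩ := hF.2 a haS
    obtain ⟨y, rfl⟩ := Sym2.mem_iff_exists.mp hafa
    have h0 := hF.1 _ hfa
    have hyS : y ∈ S := h0.2 y (Sym2.mem_mk_right a y)
    have hya : a ≠ y := by simpa using h0.1
    rw [hS] at hyS
    simp only [Finset.mem_insert, Finset.mem_singleton] at hyS
    rcases hyS with rfl | rfl | rfl | rfl
    · exact absurd rfl hya
    · exact Or.inl (pm_eq_of_mem hS hab hac hae hbc hbe hce hF hfa)
    · exact Or.inr (Or.inl (pm_eq_of_mem hS2 hac hab hae hbc.symm hce hbe hF hfa))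
    · exact Or.inr (Or.inr (pm_eq_of_mem hS3 hae hab hac hbe.symm hce.symm hbc hF hfa))
  · rintro (rfl | rfl | rfl)
    · exact pm_mk hS hab hac hae hbc hbe hce
    · exact pm_mk hS2 hac hab hae hbc.symm hce hbe
    · exact pm_mk hS3 hae hab hac hbe.symm hce.symm hbc

/-- [L2] A 4-element vertex set has exactly six ordered pairs of distinct perfect matchings. -/
theorem card_pairs (S : Finset (Fin n)) (hS : S.card = 4) : (pairs S).card = 6 := by
  classical
  -- name the four elements
  obtain ⟨a, haS⟩ : S.Nonempty := by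
    rw [← Finset.card_pos]; omega
  have h3 : (S.erase a).card = 3 := by
    rw [Finset.card_erase_of_mem haS]; omega
  obtain ⟨b, c, e, hbc, hbe, hce, hbce⟩ := Finset.card_eq_three.mp h3
  have hb : b ∈ S.erase a := by rw [hbce]; simp
  have hc : c ∈ S.erase a := by rw [hbce]; simp
  have he : e ∈ S.erase a := by rw [hbce]; simp
  have hab : a ≠ b := (Finset.ne_of_mem_erase hb).symm
  have hac : a ≠ c := (Finset.ne_of_mem_erase hc).symm
  have hae : a ≠ e := (Finset.ne_of_mem_erase he).symm
  have hSeq : S = {a, b, c, e} := by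
    rw [← Finset.insert_erase haS, hbce]
  set F1 : Finset (Sym2 (Fin n)) := {s(a, b), s(c, e)} with hF1
  set F2 : Finset (Sym2 (Fin n)) := {s(a, c), s(b, e)} with hF2
  set F3 : Finset (Sym2 (Fin n)) := {s(a, e), s(b, c)} with hF3
  have h12 : F1 ≠ F2 := by
    intro h
    have : s(a, b) ∈ F2 := by rw [← h, hF1]; simp
    rw [hF2] at this
    simp only [Finset.mem_insert, Finset.mem_singleton, Sym2.eq_iff] at this
    rcases this with (⟨-, h⟩ | ⟨h, -⟩) | (⟨h, -⟩ | ⟨h, -⟩)
    · exact hbc h
    · exact hac h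
    · exact hab h
    · exact hae h
  have h13 : F1 ≠ F3 := by
    intro h
    have : s(a, b) ∈ F3 := by rw [← h, hF1]; simp
    rw [hF3] at this
    simp only [Finset.mem_insert, Finset.mem_singleton, Sym2.eq_iff] at this
    rcases this with (⟨-, h⟩ | ⟨h, -⟩) | (⟨h, -⟩ | ⟨h, -⟩)
    · exact hbe h
    · exact hae h
    · exact hab h
    · exact hac h
  have h23 : F2 ≠ F3 := by
    intro h
    have : s(a, c) ∈ F3 := by rw [← h, hF2]; simp
    rw [hF3] at this
    simp only [Finset.mem_insert, Finset.mem_singleton, Sym2.eq_iff] at this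
    rcases this with (⟨-, h⟩ | ⟨h, -⟩) | (⟨h, -⟩ | ⟨h, -⟩)
    · exact hce h
    · exact hae h
    · exact hab h
    · exact hac h
  have hT : ({F1, F2, F3} : Finset (Finset (Sym2 (Fin n)))).card = 3 :=
    Finset.card_eq_three.mpr ⟨F1, F2, F3, h12, h13, h23, rfl⟩
  have hpairs : pairs S = ({F1, F2, F3} : Finset (Finset (Sym2 (Fin n)))).offDiag := by
    ext ⟨G, G'⟩
    simp only [pairs, Finset.mem_filter, Finset.mem_univ, true_and, Finset.mem_offDiag,
      Finset.mem_insert, Finset.mem_singleton,
      pm_iff hSeq hab hac hae hbc hbe hce]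
    exact Iff.rfl
  rw [hpairs, Finset.offDiag_card, hT]

end Vale.Agent.Helper13.KTVLiteralPM
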