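import Mathlib

/-!
# The convolution ring of absolutely summable functions on a group

For a group `G` and a complete normed ring `A`, functions `f : G → A` with
`Summable (fun g => ‖f g‖)` form a (non-unital) ring under convolution
`conv f g x = ∑' h, f h * g (h⁻¹ * x)`, with submultiplicative size `N f = ∑' g, ‖f g‖`.
-/

set_option linter.unusedSectionVars false

namespace Helper13.L1Conv

open scoped BigOperators

variable {G : Type*} {A : Type*} [NormedRing A]

/-- absolute summability -/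
def Mem (f : G → A) : Prop := Summable (fun g => ‖f g‖)

/-- the `ℓ¹` size -/
noncomputable def N (f : G → A) : ℝ := ∑' g, ‖f g‖

theorem N_nonneg (f : G → A) : 0 ≤ N f := tsum_nonneg (fun _ => norm_nonneg _)

variable [Group G]

/-- convolution -/
noncomputable def conv (f g : G → A) (x : G) : A := ∑' h, f h * g (h⁻¹ * x)

/-- the majorant on `G × G` -/
def maj (f g : G → A) (p : G × G) : ℝ := ‖f p.1‖ * ‖g (p.1⁻¹ * p.2)‖

theorem maj_nonneg (f g : G → A) : 0 ≤ maj f g :=
  fun _ => mul_nonneg (norm_nonneg _) (norm_nonneg _)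

theorem summable_shift {g : G → A} (hg : Mem g) (h : G) :
    Summable (fun x => ‖g (h⁻¹ * x)‖) :=
  (Equiv.summable_iff (Equiv.mulLeft h⁻¹)).2 hg

theorem tsum_shift (g : G → A) (h : G) : ∑' x, ‖g (h⁻¹ * x)‖ = N g :=
  (Equiv.mulLeft h⁻¹).tsum_eq (fun x => ‖g x‖)

theorem maj_inner (f g : G → A) (h : G) : ∑' x, maj f g (h, x) = ‖f h‖ * N g := by
  show ∑' x, ‖f h‖ * ‖g (h⁻¹ * x)‖ = ‖f h‖ * N g
  rw [tsum_mul_left, tsum_shift]

theorem summable_maj {f g : G → A} (hf : Mem f) (hg : Mem g) : Summable (maj f g) := by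
  refine (summable_prod_of_nonneg (maj_nonneg f g)).2 ⟨fun h => ?_, ?_⟩
  · exact (summable_shift hg h).mul_left ‖f h‖
  · simp only [maj_inner]
    exact hf.mul_right _

theorem tsum_maj {f g : G → A} (hf : Mem f) (hg : Mem g) :
    ∑' p, maj f g p = N f * N g := by
  rw [(summable_maj hf hg).tsum_prod]
  simp only [maj_inner]
  rw [tsum_mul_right]
  rfl

/-- the sections in the first variable are summable -/
theorem summable_term_norm {f g : G → A} (hf : Mem f) (hg : Mem g) (x : G) :
    Summable (fun h => ‖f h‖ * ‖g (h⁻¹ * x)‖) :=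
  (summable_maj hf hg).prod_symm.prod_factor x

theorem summable_term_norm' {f g : G → A} (hf : Mem f) (hg : Mem g) (x : G) :
    Summable (fun h => ‖f h * g (h⁻¹ * x)‖) :=
  Summable.of_nonneg_of_le (fun _ => norm_nonneg _) (fun _ => norm_mul_le _ _)
    (summable_term_norm hf hg x)

theorem norm_conv_le {f g : G → A} (hf : Mem f) (hg : Mem g) (x : G) :
    ‖conv f g x‖ ≤ ∑' h, ‖f h‖ * ‖g (h⁻¹ * x)‖ := by
  refine (norm_tsum_le_tsum_norm (summable_term_norm' hf hg x)).trans ?_
  exact (summable_term_norm' hf hg x).tsum_le_tsum (fun _ => norm_mul_le _ _)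
    (summable_term_norm hf hg x)

theorem summable_outer {f g : G → A} (hf : Mem f) (hg : Mem g) :
    Summable (fun x => ∑' h, ‖f h‖ * ‖g (h⁻¹ * x)‖) :=
  ((summable_prod_of_nonneg (fun p => maj_nonneg f g p.swap)).1
    (summable_maj hf hg).prod_symm).2

theorem tsum_outer {f g : G → A} (hf : Mem f) (hg : Mem g) :
    ∑' x, ∑' h, ‖f h‖ * ‖g (h⁻¹ * x)‖ = N f * N g := by
  rw [← tsum_maj hf hg]
  have h1 := (summable_maj hf hg).prod_symm.tsum_prod
  have h2 := (Equiv.prodComm G G).tsum_eq (maj f g)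
  rw [← h2]
  exact h1.symm

theorem mem_conv {f g : G → A} (hf : Mem f) (hg : Mem g) : Mem (conv f g) :=
  Summable.of_nonneg_of_le (fun _ => norm_nonneg _) (norm_conv_le hf hg) (summable_outer hf hg)

theorem N_conv_le {f g : G → A} (hf : Mem f) (hg : Mem g) : N (conv f g) ≤ N f * N g := by
  rw [← tsum_outer hf hg]
  exact (mem_conv hf hg).tsum_le_tsum (norm_conv_le hf hg) (summable_outer hf hg)

variable [CompleteSpace A]

theorem summable_term {f g : G → A} (hf : Mem f) (hg : Mem g) (x : G) :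
    Summable (fun h => f h * g (h⁻¹ * x)) :=
  (summable_term_norm' hf hg x).of_norm

theorem norm_le_N {k : G → A} (hk : Mem k) (y : G) : ‖k y‖ ≤ N k :=
  hk.le_tsum y (fun _ _ => norm_nonneg _)

omit [Group G] [CompleteSpace A] in
theorem mem_zero : Mem (0 : G → A) := by
  show Summable (fun g : G => ‖(0 : A)‖)
  simp only [norm_zero]
  exact summable_zero

omit [Group G] [CompleteSpace A] in
theorem mem_add {f g : G → A} (hf : Mem f) (hg : Mem g) : Mem (f + g) :=
  Summable.of_nonneg_of_le (fun _ => norm_nonneg _) (fun _ => norm_add_le _ _) (hf.add hg)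

omit [Group G] [CompleteSpace A] in
theorem mem_neg {f : G → A} (hf : Mem f) : Mem (-f) := by
  show Summable (fun g : G => ‖-f g‖)
  simp only [norm_neg]
  exact hf

omit [Group G] [CompleteSpace A] in
theorem mem_sub {f g : G → A} (hf : Mem f) (hg : Mem g) : Mem (f - g) := by
  rw [sub_eq_add_neg]
  exact mem_add hf (mem_neg hg)

theorem conv_add_left {f f' g : G → A} (hf : Mem f) (hf' : Mem f') (hg : Mem g) :
    conv (f + f') g = conv f g + conv f' g := by
  funext x
  show ∑' h, (f h + f' h) * g (h⁻¹ * x) = conv f g x + conv f' g x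
  simp only [add_mul]
  exact (summable_term hf hg x).tsum_add (summable_term hf' hg x)

theorem conv_add_right {f g g' : G → A} (hf : Mem f) (hg : Mem g) (hg' : Mem g') :
    conv f (g + g') = conv f g + conv f g' := by
  funext x
  show ∑' h, f h * (g (h⁻¹ * x) + g' (h⁻¹ * x)) = conv f g x + conv f g' x
  simp only [mul_add]
  exact (summable_term hf hg x).tsum_add (summable_term hf hg' x)

omit [CompleteSpace A] in
theorem conv_zero_left (g : G → A) : conv (0 : G → A) g = 0 := by
  funext x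
  show ∑' h, (0 : A) * g (h⁻¹ * x) = 0
  simp

omit [CompleteSpace A] in
theorem conv_zero_right (f : G → A) : conv f (0 : G → A) = 0 := by
  funext x
  show ∑' h, f h * (0 : A) = 0
  simp

theorem conv_assoc {f g k : G → A} (hf : Mem f) (hg : Mem g) (hk : Mem k) :
    conv (conv f g) k = conv f (conv g k) := by
  funext x
  have hsum : Summable (Function.uncurry fun h m => f m * g (m⁻¹ * h) * k (h⁻¹ * x)) := by
    refine Summable.of_norm_bounded ((summable_maj hf hg).prod_symm.mul_right (N k)) ?_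
    rintro ⟨h, m⟩
    show ‖f m * g (m⁻¹ * h) * k (h⁻¹ * x)‖ ≤ ‖f m‖ * ‖g (m⁻¹ * h)‖ * N k
    calc ‖f m * g (m⁻¹ * h) * k (h⁻¹ * x)‖ ≤ ‖f m * g (m⁻¹ * h)‖ * ‖k (h⁻¹ * x)‖ := norm_mul_le _ _
      _ ≤ ‖f m‖ * ‖g (m⁻¹ * h)‖ * N k :=
        mul_le_mul (norm_mul_le _ _) (norm_le_N hk _) (norm_nonneg _)
          (mul_nonneg (norm_nonneg _) (norm_nonneg _))
  have lhs : conv (conv f g) k x = ∑' h, ∑' m, f m * g (m⁻¹ * h) * k (h⁻¹ * x) := by
    show ∑' h, (∑' m, f m * g (m⁻¹ * h)) * k (h⁻¹ * x) = _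
    refine tsum_congr fun h => ?_
    exact ((summable_term hf hg h).tsum_mul_right _).symm
  have rhs : conv f (conv g k) x = ∑' m, ∑' h, f m * g (m⁻¹ * h) * k (h⁻¹ * x) := by
    show ∑' m, f m * (∑' j, g j * k (j⁻¹ * (m⁻¹ * x))) = _
    refine tsum_congr fun m => ?_
    rw [← (summable_term hg hk (m⁻¹ * x)).tsum_mul_left]
    rw [← (Equiv.mulLeft m⁻¹).tsum_eq]
    refine tsum_congr fun h => ?_
    show f m * (g (m⁻¹ * h) * k ((m⁻¹ * h)⁻¹ * (m⁻¹ * x))) = f m * g (m⁻¹ * h) * k (h⁻¹ * x)
    have : (m⁻¹ * h)⁻¹ * (m⁻¹ * x) = h⁻¹ * x := by group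
    rw [this, mul_assoc]
  rw [lhs, rhs]
  exact hsum.tsum_comm.symm

variable (G A) in
/-- absolutely summable functions as an additive subgroup of all functions -/
def L1 : AddSubgroup (G → A) where
  carrier := {f | Mem f}
  add_mem' := fun hf hg => mem_add hf hg
  zero_mem' := mem_zero
  neg_mem' := fun hf => mem_neg hf

noncomputable instance : Mul (L1 G A) := ⟨fun f g => ⟨conv f.1 g.1, mem_conv f.2 g.2⟩⟩

theorem coe_mul (f g : L1 G A) : ((f * g : L1 G A) : G → A) = conv f.1 g.1 := rfl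

noncomputable instance : NonUnitalRing (L1 G A) :=
  { (inferInstance : AddCommGroup (L1 G A)) with
    left_distrib := fun f g k => Subtype.ext (conv_add_right f.2 g.2 k.2)
    right_distrib := fun f g k => Subtype.ext (conv_add_left f.2 g.2 k.2)
    zero_mul := fun f => Subtype.ext (conv_zero_left f.1)
    mul_zero := fun f => Subtype.ext (conv_zero_right f.1)
    mul_assoc := fun f g k => Subtype.ext (conv_assoc f.2 g.2 k.2) }

/-- the size on the subgroup -/
noncomputable def size (f : L1 G A) : ℝ := N f.1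

theorem size_nonneg (f : L1 G A) : 0 ≤ size f := N_nonneg _

theorem size_mul_le (f g : L1 G A) : size (f * g) ≤ size f * size g := N_conv_le f.2 g.2

end Helper13.L1Conv
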