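import Mathlib

/-!
# Idempotents at distance less than one have equal traces

An abstract lemma for a (possibly non-unital) ring `R` carrying a submultiplicative size
function `N` and an additive trace `τ` bounded by a multiple of `N`.
-/

namespace Helper13.TraceClose

variable {R : Type*} [NonUnitalRing R]

/-- algebra: the square of `e - f`, times `e`, equals `e - e * f * e` for idempotents. -/
theorem sq_mul_left {e f : R} (he : e * e = e) (hf : f * f = f) :
    (e - f) * (e - f) * e = e - e * f * e := by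
  have h1 : (e - f) * (e - f) = e - e * f - f * e + f := by
    simp only [mul_sub, sub_mul, he, hf]; abel
  rw [h1]
  simp only [sub_mul, add_mul, he, mul_assoc]
  abel

theorem mul_sq_left {e f : R} (he : e * e = e) (hf : f * f = f) :
    e * ((e - f) * (e - f)) = e - e * f * e := by
  have h1 : (e - f) * (e - f) = e - e * f - f * e + f := by
    simp only [mul_sub, sub_mul, he, hf]; abel
  rw [h1]
  simp only [mul_sub, mul_add, ← mul_assoc, he]
  abel

theorem sq_mul_right {e f : R} (he : e * e = e) (hf : f * f = f) :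
    (e - f) * (e - f) * f = f - f * e * f := by
  have h1 : (e - f) * (e - f) = e - e * f - f * e + f := by
    simp only [mul_sub, sub_mul, he, hf]; abel
  rw [h1]
  simp only [sub_mul, add_mul, hf, mul_assoc]
  abel

theorem mul_sq_right {e f : R} (he : e * e = e) (hf : f * f = f) :
    f * ((e - f) * (e - f)) = f - f * e * f := by
  have h1 : (e - f) * (e - f) = e - e * f - f * e + f := by
    simp only [mul_sub, sub_mul, he, hf]; abel
  rw [h1]
  simp only [mul_sub, mul_add, ← mul_assoc, hf]
  abel

/-- the iterated powers `c^(k+1)` of `c`, available without a unit. -/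
def pw (c : R) : ℕ → R
  | 0 => c
  | k + 1 => pw c k * c

theorem pw_comm {c x : R} (h : c * x = x * c) (k : ℕ) : pw c k * x = x * pw c k := by
  induction k with
  | zero => exact h
  | succ k ih =>
    show pw c k * c * x = x * (pw c k * c)
    rw [mul_assoc, h, ← mul_assoc, ih, mul_assoc]

theorem size_pw (N : R → ℝ) (hN0 : ∀ a, 0 ≤ N a) (hNmul : ∀ a b, N (a * b) ≤ N a * N b)
    (c : R) (k : ℕ) : N (pw c k) ≤ N c ^ (k + 1) := by
  induction k with
  | zero => simp [pw]
  | succ k ih =>
    show N (pw c k * c) ≤ N c ^ (k + 1 + 1)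
    calc N (pw c k * c) ≤ N (pw c k) * N c := hNmul _ _
      _ ≤ N c ^ (k + 1) * N c := mul_le_mul_of_nonneg_right ih (hN0 c)
      _ = N c ^ (k + 1 + 1) := by ring

section trace

variable (τ : R →+ ℂ) (hτc : ∀ a b, τ (a * b) = τ (b * a))
include hτc

theorem step_one {e f : R} (he : e * e = e) (hf : f * f = f) :
    τ ((e - f) * (e - f) * e) - τ ((e - f) * (e - f) * f) = τ e - τ f := by
  rw [sq_mul_left he hf, sq_mul_right he hf]
  have h1 : τ (e * f * e) = τ (f * e) := by
    rw [hτc (e * f) e, ← mul_assoc, he, hτc]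
  have h2 : τ (f * e * f) = τ (f * e) := by
    rw [hτc (f * e) f, ← mul_assoc, hf]
  simp only [map_sub, h1, h2]
  ring

theorem step_gen {e f z : R} (he : e * e = e) (hf : f * f = f)
    (hze : z * e = e * z) (hzf : z * f = f * z) :
    τ (z * ((e - f) * (e - f)) * e) - τ (z * ((e - f) * (e - f)) * f) = τ (z * e) - τ (z * f) := by
  rw [mul_assoc z ((e - f) * (e - f)) e, mul_assoc z ((e - f) * (e - f)) f,
    sq_mul_left he hf, sq_mul_right he hf]
  have h1 : τ (z * (e * f * e)) = τ (z * e * f) := by
    have : z * (e * f * e) = z * e * f * e := by simp only [mul_assoc]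
    rw [this, hτc (z * e * f) e, ← mul_assoc, ← mul_assoc, ← hze, mul_assoc z e e, he]
  have h2 : τ (z * (f * e * f)) = τ (z * f * e) := by
    have : z * (f * e * f) = z * f * e * f := by simp only [mul_assoc]
    rw [this, hτc (z * f * e) f, ← mul_assoc, ← mul_assoc, ← hzf, mul_assoc z f f, hf]
  have h3 : τ (z * f * e) = τ (z * e * f) := by
    rw [hτc (z * f) e, ← mul_assoc, ← hze]
  simp only [mul_sub, map_sub, h1, h2, h3]
  ring

theorem pw_trace {e f : R} (he : e * e = e) (hf : f * f = f) (k : ℕ) :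
    τ (pw ((e - f) * (e - f)) k * e) - τ (pw ((e - f) * (e - f)) k * f) = τ e - τ f := by
  have hce : (e - f) * (e - f) * e = e * ((e - f) * (e - f)) := by
    rw [sq_mul_left he hf, mul_sq_left he hf]
  have hcf : (e - f) * (e - f) * f = f * ((e - f) * (e - f)) := by
    rw [sq_mul_right he hf, mul_sq_right he hf]
  induction k with
  | zero => exact step_one τ hτc he hf
  | succ k ih =>
    show τ (pw ((e - f) * (e - f)) k * ((e - f) * (e - f)) * e)
      - τ (pw ((e - f) * (e - f)) k * ((e - f) * (e - f)) * f) = τ e - τ f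
    rw [step_gen τ hτc he hf (pw_comm hce k) (pw_comm hcf k), ih]

/-- Two idempotents whose difference has size `< 1` have the same trace. -/
theorem trace_eq_of_close (N : R → ℝ) (hN0 : ∀ a, 0 ≤ N a)
    (hNmul : ∀ a b, N (a * b) ≤ N a * N b) (K : ℝ) (hτ : ∀ a, ‖τ a‖ ≤ K * N a)
    {e f : R} (he : e * e = e) (hf : f * f = f) (hd : N (e - f) < 1) : τ e = τ f := by
  set d := e - f with hd_def
  set r := N d with hr_def
  have hr0 : 0 ≤ r := hN0 d
  have key : ∀ k : ℕ, ‖τ e - τ f‖ ≤ |K| * r ^ (2 * k + 3) := by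
    intro k
    have h1 : τ e - τ f = τ (pw (d * d) k * d) := by
      rw [← pw_trace τ hτc he hf k, ← map_sub, ← mul_sub]
    rw [h1]
    have h2 : N (pw (d * d) k * d) ≤ r ^ (2 * k + 3) := by
      calc N (pw (d * d) k * d) ≤ N (pw (d * d) k) * N d := hNmul _ _
        _ ≤ N (d * d) ^ (k + 1) * r := mul_le_mul_of_nonneg_right (size_pw N hN0 hNmul _ k) hr0
        _ ≤ (r * r) ^ (k + 1) * r :=
            mul_le_mul_of_nonneg_right (pow_le_pow_left₀ (hN0 _) (hNmul d d) _) hr0
        _ = r ^ (2 * k + 3) := by ring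
    calc ‖τ (pw (d * d) k * d)‖ ≤ K * N (pw (d * d) k * d) := hτ _
      _ ≤ |K| * N (pw (d * d) k * d) := mul_le_mul_of_nonneg_right (le_abs_self K) (hN0 _)
      _ ≤ |K| * r ^ (2 * k + 3) := mul_le_mul_of_nonneg_left h2 (abs_nonneg K)
  have hlim : Filter.Tendsto (fun k : ℕ => |K| * r ^ (2 * k + 3)) Filter.atTop (nhds 0) := by
    have h0 : Filter.Tendsto (fun n : ℕ => r ^ n) Filter.atTop (nhds 0) :=
      tendsto_pow_atTop_nhds_zero_of_lt_one hr0 hd
    have h1 : Filter.Tendsto (fun k : ℕ => 2 * k + 3) Filter.atTop Filter.atTop := by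
      apply Filter.tendsto_atTop_mono (fun k => ?_) Filter.tendsto_id
      show k ≤ 2 * k + 3
      omega
    simpa using (h0.comp h1).const_mul |K|
  have hz : ‖τ e - τ f‖ ≤ 0 := ge_of_tendsto' hlim key
  have : τ e - τ f = 0 := by simpa using hz
  exact sub_eq_zero.mp this

end trace

end Helper13.TraceClose
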