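import Mathlib
import Vale.Agent.Helper13.L1Conv
import Vale.Agent.Helper13.TraceClose

/-!
# Class traces on the convolution ring, twists by unitary characters, and vanishing

`tauFun tr C f = ∑' x, C.indicator (fun x => tr (f x)) x` is a bounded trace on the
convolution ring when `C` is closed under conjugation and `tr` is a continuous trace on
the coefficient ring.  Twisting by a unitary character is a ring automorphism; combined
with `TraceClose.trace_eq_of_close` this gives the vanishing theorem `tau_eq_zero`.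
-/

set_option linter.unusedSectionVars false

namespace Helper13.L1Conv

open scoped BigOperators

variable {G : Type*} [Group G] {A : Type*} [NormedRing A] [NormedAlgebra ℂ A] [CompleteSpace A]

/-- the trace coefficient at the set `C` -/
noncomputable def tauFun (tr : A →L[ℂ] ℂ) (C : Set G) (f : G → A) : ℂ :=
  ∑' x, C.indicator (fun x => tr (f x)) x

theorem norm_indicator_le (tr : A →L[ℂ] ℂ) (C : Set G) (f : G → A) (x : G) :
    ‖C.indicator (fun x => tr (f x)) x‖ ≤ ‖tr‖ * ‖f x‖ := by
  by_cases hx : x ∈ C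
  · rw [Set.indicator_of_mem hx]
    exact tr.le_opNorm _
  · rw [Set.indicator_of_notMem hx, norm_zero]
    exact mul_nonneg (norm_nonneg _) (norm_nonneg _)

theorem summable_tau (tr : A →L[ℂ] ℂ) (C : Set G) {f : G → A} (hf : Mem f) :
    Summable (C.indicator (fun x => tr (f x))) :=
  Summable.of_norm_bounded (hf.mul_left ‖tr‖) (norm_indicator_le tr C f)

theorem norm_tau_le (tr : A →L[ℂ] ℂ) (C : Set G) {f : G → A} (hf : Mem f) :
    ‖tauFun tr C f‖ ≤ ‖tr‖ * N f := by
  have h1 : Summable (fun x => ‖C.indicator (fun x => tr (f x)) x‖) :=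
    Summable.of_nonneg_of_le (fun _ => norm_nonneg _) (norm_indicator_le tr C f)
      (hf.mul_left ‖tr‖)
  refine (norm_tsum_le_tsum_norm h1).trans ?_
  have h2 := h1.tsum_le_tsum (norm_indicator_le tr C f) (hf.mul_left ‖tr‖)
  rw [tsum_mul_left] at h2
  exact h2

theorem tau_add (tr : A →L[ℂ] ℂ) (C : Set G) {f g : G → A} (hf : Mem f) (hg : Mem g) :
    tauFun tr C (f + g) = tauFun tr C f + tauFun tr C g := by
  unfold tauFun
  rw [← (summable_tau tr C hf).tsum_add (summable_tau tr C hg)]
  refine tsum_congr fun x => ?_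
  by_cases hx : x ∈ C
  · simp [Set.indicator_of_mem hx]
  · simp [Set.indicator_of_notMem hx]

/-- the class trace as an additive map on the convolution ring -/
noncomputable def tauHom (tr : A →L[ℂ] ℂ) (C : Set G) : L1 G A →+ ℂ where
  toFun f := tauFun tr C f.1
  map_zero' := by
    show tauFun tr C (0 : G → A) = 0
    unfold tauFun
    have : (C.indicator fun x => tr ((0 : G → A) x)) = fun _ => (0 : ℂ) := by
      funext x
      by_cases hx : x ∈ C
      · simp [Set.indicator_of_mem hx]
      · simp [Set.indicator_of_notMem hx]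
    rw [this, tsum_zero]
  map_add' f g := tau_add tr C f.2 g.2

/-- the pairing on `G × G` computing the trace of a convolution -/
noncomputable def pair (tr : A →L[ℂ] ℂ) (C : Set G) (f g : G → A) (h k : G) : ℂ :=
  C.indicator (fun _ => tr (f h * g k)) (h * k)

theorem norm_pair_le (tr : A →L[ℂ] ℂ) (C : Set G) (f g : G → A) (h k : G) :
    ‖pair tr C f g h k‖ ≤ ‖tr‖ * (‖f h‖ * ‖g k‖) := by
  unfold pair
  by_cases hx : h * k ∈ C
  · rw [Set.indicator_of_mem hx]
    exact (tr.le_opNorm _).trans (mul_le_mul_of_nonneg_left (norm_mul_le _ _) (norm_nonneg _))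
  · rw [Set.indicator_of_notMem hx, norm_zero]
    exact mul_nonneg (norm_nonneg _) (mul_nonneg (norm_nonneg _) (norm_nonneg _))

theorem summable_pair (tr : A →L[ℂ] ℂ) (C : Set G) {f g : G → A} (hf : Mem f) (hg : Mem g) :
    Summable (Function.uncurry (pair tr C f g)) := by
  have h0 : Summable (fun p : G × G => ‖f p.1‖ * ‖g p.2‖) :=
    Summable.mul_of_nonneg hf hg (fun _ => norm_nonneg _) (fun _ => norm_nonneg _)
  refine Summable.of_norm_bounded (h0.mul_left ‖tr‖) ?_
  rintro ⟨h, k⟩
  exact norm_pair_le tr C f g h k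

theorem tau_conv (tr : A →L[ℂ] ℂ) (C : Set G) {f g : G → A} (hf : Mem f) (hg : Mem g) :
    tauFun tr C (conv f g) = ∑' h, ∑' k, pair tr C f g h k := by
  have hsum : Summable (Function.uncurry fun x h =>
      C.indicator (fun x => tr (f h * g (h⁻¹ * x))) x) := by
    refine Summable.of_norm_bounded ((summable_maj hf hg).prod_symm.mul_left ‖tr‖) ?_
    rintro ⟨x, h⟩
    show ‖C.indicator (fun x => tr (f h * g (h⁻¹ * x))) x‖ ≤ ‖tr‖ * (‖f h‖ * ‖g (h⁻¹ * x)‖)
    by_cases hx : x ∈ C
    · rw [Set.indicator_of_mem hx]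
      exact (tr.le_opNorm _).trans
        (mul_le_mul_of_nonneg_left (norm_mul_le _ _) (norm_nonneg _))
    · rw [Set.indicator_of_notMem hx, norm_zero]
      exact mul_nonneg (norm_nonneg _) (mul_nonneg (norm_nonneg _) (norm_nonneg _))
  have h1 : tauFun tr C (conv f g)
      = ∑' x, ∑' h, C.indicator (fun x => tr (f h * g (h⁻¹ * x))) x := by
    unfold tauFun
    refine tsum_congr fun x => ?_
    by_cases hx : x ∈ C
    · simp only [Set.indicator_of_mem hx]
      show tr (∑' h, f h * g (h⁻¹ * x)) = _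
      exact tr.map_tsum (summable_term hf hg x)
    · simp only [Set.indicator_of_notMem hx, tsum_zero]
  rw [h1, hsum.tsum_comm.symm]
  refine tsum_congr fun h => ?_
  rw [← (Equiv.mulLeft h).tsum_eq]
  refine tsum_congr fun k => ?_
  show C.indicator (fun x => tr (f h * g (h⁻¹ * x))) (h * k) = pair tr C f g h k
  unfold pair
  by_cases hx : h * k ∈ C
  · rw [Set.indicator_of_mem hx, Set.indicator_of_mem hx, inv_mul_cancel_left]
  · rw [Set.indicator_of_notMem hx, Set.indicator_of_notMem hx]

theorem tau_comm (tr : A →L[ℂ] ℂ) (htr : ∀ a b, tr (a * b) = tr (b * a)) (C : Set G)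
    (hC : ∀ g h, g * h ∈ C ↔ h * g ∈ C) {f g : G → A} (hf : Mem f) (hg : Mem g) :
    tauFun tr C (conv f g) = tauFun tr C (conv g f) := by
  rw [tau_conv tr C hf hg, tau_conv tr C hg hf, (summable_pair tr C hf hg).tsum_comm.symm]
  refine tsum_congr fun k => tsum_congr fun h => ?_
  unfold pair
  by_cases hx : k * h ∈ C
  · rw [Set.indicator_of_mem hx, Set.indicator_of_mem ((hC k h).1 hx), htr]
  · rw [Set.indicator_of_notMem hx, Set.indicator_of_notMem (fun h' => hx ((hC k h).2 h'))]

/-- twisting by a scalar function -/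
def twist (χ : G → ℂ) (f : G → A) : G → A := fun g => χ g • f g

theorem mem_twist {χ : G → ℂ} (hχ : ∀ g, ‖χ g‖ = 1) {f : G → A} (hf : Mem f) :
    Mem (twist χ f) := by
  show Summable (fun g => ‖χ g • f g‖)
  simp only [norm_smul, hχ, one_mul]
  exact hf

theorem conv_twist {χ : G → ℂ} (hχ : ∀ a b, χ (a * b) = χ a * χ b) (f g : G → A) :
    conv (twist χ f) (twist χ g) = twist χ (conv f g) := by
  funext x
  show ∑' h, (χ h • f h) * (χ (h⁻¹ * x) • g (h⁻¹ * x)) = χ x • ∑' h, f h * g (h⁻¹ * x)
  rw [← tsum_const_smul'']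
  refine tsum_congr fun h => ?_
  rw [smul_mul_smul_comm, ← hχ, mul_inv_cancel_left]

theorem tau_twist (tr : A →L[ℂ] ℂ) (C : Set G) {χ : G → ℂ} {c : ℂ} (hχC : ∀ x ∈ C, χ x = c)
    (f : G → A) : tauFun tr C (twist χ f) = c * tauFun tr C f := by
  unfold tauFun
  rw [← tsum_mul_left]
  refine tsum_congr fun x => ?_
  by_cases hx : x ∈ C
  · rw [Set.indicator_of_mem hx, Set.indicator_of_mem hx]
    show tr (χ x • f x) = c * tr (f x)
    rw [map_smul, hχC x hx, smul_eq_mul]
  · rw [Set.indicator_of_notMem hx, Set.indicator_of_notMem hx, mul_zero]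

theorem N_twist_sub (χ : G → ℂ) (f : G → A) :
    N (f - twist χ f) = ∑' g, ‖1 - χ g‖ * ‖f g‖ := by
  unfold N
  refine tsum_congr fun g => ?_
  show ‖f g - χ g • f g‖ = ‖1 - χ g‖ * ‖f g‖
  rw [← norm_smul, sub_smul, one_smul]

/-- **Abstract vanishing.** If an idempotent `e` of the convolution ring is at distance
less than one from its twist by a unitary character `χ` which takes a constant value
`c ≠ 1` on the conjugation-closed set `C`, then the `C`-trace of `e` vanishes. -/
theorem tau_eq_zero_of_twist (tr : A →L[ℂ] ℂ) (htr : ∀ a b, tr (a * b) = tr (b * a))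
    (C : Set G) (hC : ∀ g h, g * h ∈ C ↔ h * g ∈ C)
    {e : G → A} (he : Mem e) (hidem : conv e e = e)
    {χ : G → ℂ} (hχ1 : ∀ g, ‖χ g‖ = 1) (hχmul : ∀ a b, χ (a * b) = χ a * χ b)
    {c : ℂ} (hc : c ≠ 1) (hχC : ∀ x ∈ C, χ x = c)
    (hclose : N (e - twist χ e) < 1) : tauFun tr C e = 0 := by
  let E : L1 G A := ⟨e, he⟩
  let F : L1 G A := ⟨twist χ e, mem_twist hχ1 he⟩
  have hE : E * E = E := Subtype.ext hidem
  have hF : F * F = F := Subtype.ext (by
    show conv (twist χ e) (twist χ e) = twist χ e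
    rw [conv_twist hχmul, hidem])
  have hcomm : ∀ a b : L1 G A, tauHom tr C (a * b) = tauHom tr C (b * a) :=
    fun a b => tau_comm tr htr C hC a.2 b.2
  have hbound : ∀ a : L1 G A, ‖tauHom tr C a‖ ≤ ‖tr‖ * size a :=
    fun a => norm_tau_le tr C a.2
  have hcl : size (E - F) < 1 := hclose
  have key : tauHom tr C E = tauHom tr C F :=
    TraceClose.trace_eq_of_close (tauHom tr C) hcomm size size_nonneg size_mul_le ‖tr‖
      hbound hE hF hcl
  have h2 : tauFun tr C e = c * tauFun tr C e := by
    have : tauHom tr C F = c * tauFun tr C e := tau_twist tr C hχC e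
    rw [← this, ← key]
    rfl
  have h3 : (1 - c) * tauFun tr C e = 0 := by
    rw [sub_mul, one_mul, ← h2, sub_self]
  rcases mul_eq_zero.1 h3 with h | h
  · exact absurd (sub_eq_zero.1 h).symm hc
  · exact h

end Helper13.L1Conv
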