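import Mathlib
import Vale.Agent.Helper13.L1Trace

/-!
# Vanishing of class traces of `ℓ¹` idempotents on classes seen by an additive character

If `φ : G → ℝ` is additive and takes the constant non-zero value `n` on the
conjugation-closed set `C`, then the `C`-trace of every idempotent of the convolution ring
of absolutely summable functions `G → A` vanishes.
-/

set_option linter.unusedSectionVars false

namespace Helper13.L1Conv

open scoped BigOperators
open Filter Topology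

variable {G : Type*} [Group G] {A : Type*} [NormedRing A] [NormedAlgebra ℂ A] [CompleteSpace A]

/-- the unitary character `g ↦ exp (i θ φ(g))` -/
noncomputable def chi (φ : G → ℝ) (θ : ℝ) (g : G) : ℂ := Complex.exp ((θ * φ g : ℝ) * Complex.I)

theorem norm_chi (φ : G → ℝ) (θ : ℝ) (g : G) : ‖chi φ θ g‖ = 1 :=
  Complex.norm_exp_ofReal_mul_I _

theorem chi_mul {φ : G → ℝ} (hφ : ∀ a b, φ (a * b) = φ a + φ b) (θ : ℝ) (a b : G) :
    chi φ θ (a * b) = chi φ θ a * chi φ θ b := by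
  unfold chi
  rw [← Complex.exp_add, hφ]
  congr 1
  push_cast
  ring

theorem chi_ne_one {n θ : ℝ} (hn : n ≠ 0) (h0 : 0 < θ) (h1 : θ < 2 * Real.pi / |n|) :
    Complex.exp ((θ * n : ℝ) * Complex.I) ≠ 1 := by
  intro h
  rw [Complex.exp_eq_one_iff] at h
  obtain ⟨m, hm⟩ := h
  have hre : θ * n = m * (2 * Real.pi) := by
    have := congrArg Complex.im hm
    simpa using this
  have hnpos : 0 < |n| := abs_pos.2 hn
  have hlt : |θ * n| < 2 * Real.pi := by
    rw [abs_mul, abs_of_pos h0]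
    calc θ * |n| < 2 * Real.pi / |n| * |n| := mul_lt_mul_of_pos_right h1 hnpos
      _ = 2 * Real.pi := by field_simp
  have hpos : 0 < |θ * n| := abs_pos.2 (mul_ne_zero h0.ne' hn)
  rw [hre, abs_mul, abs_of_pos (by positivity : (0 : ℝ) < 2 * Real.pi)] at hlt hpos
  have hm1 : |(m : ℝ)| < 1 := by
    by_contra hge
    rw [not_lt] at hge
    have : 2 * Real.pi ≤ |(m : ℝ)| * (2 * Real.pi) := by
      have hp : (0 : ℝ) < 2 * Real.pi := by positivity
      nlinarith
    linarith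
  have hm0 : m = 0 := by
    have : |m| < 1 := by exact_mod_cast hm1
    exact Int.abs_lt_one_iff.1 this
  rw [hm0] at hpos
  simp at hpos

theorem tendsto_twist {φ : G → ℝ} {e : G → A} (he : Mem e) :
    Tendsto (fun θ : ℝ => N (e - twist (chi φ θ) e)) (𝓝 0) (𝓝 0) := by
  have h := tendsto_tsum_of_dominated_convergence (𝓕 := 𝓝 (0 : ℝ))
    (f := fun θ g => ‖1 - chi φ θ g‖ * ‖e g‖) (g := fun _ => (0 : ℝ))
    (bound := fun g => 2 * ‖e g‖) (he.mul_left 2) ?_ ?_
  · simp only [tsum_zero] at h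
    refine h.congr fun θ => ?_
    rw [N_twist_sub]
  · intro g
    have hc : Continuous (fun θ : ℝ => ‖1 - chi φ θ g‖ * ‖e g‖) := by
      unfold chi
      fun_prop
    have := hc.tendsto 0
    simpa [chi] using this
  · refine Eventually.of_forall fun θ g => ?_
    rw [Real.norm_eq_abs, abs_of_nonneg (mul_nonneg (norm_nonneg _) (norm_nonneg _))]
    refine mul_le_mul_of_nonneg_right ?_ (norm_nonneg _)
    calc ‖1 - chi φ θ g‖ ≤ ‖(1 : ℂ)‖ + ‖chi φ θ g‖ := norm_sub_le _ _
      _ = 2 := by rw [norm_chi, norm_one]; norm_num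

/-- **Vanishing theorem (general coefficients).** -/
theorem tau_eq_zero (tr : A →L[ℂ] ℂ) (htr : ∀ a b, tr (a * b) = tr (b * a))
    (C : Set G) (hC : ∀ g h, g * h ∈ C ↔ h * g ∈ C)
    {e : G → A} (he : Mem e) (hidem : conv e e = e)
    (φ : G → ℝ) (hφ : ∀ a b, φ (a * b) = φ a + φ b)
    {n : ℝ} (hn : n ≠ 0) (hφC : ∀ x ∈ C, φ x = n) : tauFun tr C e = 0 := by
  have hev : ∀ᶠ θ in 𝓝[>] (0 : ℝ), N (e - twist (chi φ θ) e) < 1 :=
    ((tendsto_twist (φ := φ) he).eventually (Iio_mem_nhds (by norm_num : (0 : ℝ) < 1))).filter_mono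
      nhdsWithin_le_nhds
  have hpos : 0 < 2 * Real.pi / |n| := by
    have : 0 < |n| := abs_pos.2 hn
    positivity
  have hIoo : ∀ᶠ θ in 𝓝[>] (0 : ℝ), θ ∈ Set.Ioo 0 (2 * Real.pi / |n|) := Ioo_mem_nhdsGT hpos
  obtain ⟨θ, hθ1, hθ2⟩ := (hev.and hIoo).exists
  refine tau_eq_zero_of_twist tr htr C hC he hidem (χ := chi φ θ) (norm_chi φ θ)
    (chi_mul hφ θ) (chi_ne_one hn hθ2.1 hθ2.2) (fun x hx => ?_) hθ1
  show Complex.exp ((θ * φ x : ℝ) * Complex.I) = _
  rw [hφC x hx]

end Helper13.L1Conv
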