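import Mathlib
import Vale.Agent.Helper13.L1Bass

/-!
# The vanishing theorem for idempotent matrices over `ℓ¹(G)`

Specialisation of `L1Conv.tau_eq_zero` to the coefficient ring `Matrix (Fin q) (Fin q) ℂ`,
stated without any norm or topology on matrices: summability is entrywise and the
idempotent equation is entrywise.
-/

set_option linter.unusedSectionVars false

namespace Helper13.L1Conv

open scoped BigOperators

section
attribute [local instance] Matrix.linftyOpNormedRing Matrix.linftyOpNormedAlgebra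

variable {G : Type*} [Group G] {q : ℕ}

theorem isConj_mul_swap (g₀ g h : G) : IsConj g₀ (g * h) ↔ IsConj g₀ (h * g) := by
  have key : ∀ a b : G, IsConj g₀ (a * b) → IsConj g₀ (b * a) := by
    intro a b hab
    refine hab.trans (isConj_iff.2 ⟨a⁻¹, ?_⟩)
    group
  exact ⟨key g h, key h g⟩

theorem mem_of_entries (e : G → Matrix (Fin q) (Fin q) ℂ)
    (hsum : ∀ i j, Summable (fun g => ‖e g i j‖)) : Mem e := by
  have hb : ∀ g, ‖e g‖ ≤ ∑ i, ∑ j, ‖e g i j‖ * ‖Matrix.single i j (1 : ℂ)‖ := by
    intro g
    conv_lhs => rw [Matrix.matrix_eq_sum_single (e g)]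
    refine (norm_sum_le _ _).trans (Finset.sum_le_sum fun i _ => ?_)
    refine (norm_sum_le _ _).trans (Finset.sum_le_sum fun j _ => ?_)
    have : Matrix.single i j (e g i j) = e g i j • Matrix.single i j (1 : ℂ) := by
      rw [Matrix.smul_single, smul_eq_mul, mul_one]
    rw [this]
    exact norm_smul_le _ _
  refine Summable.of_nonneg_of_le (fun _ => norm_nonneg _) hb ?_
  refine summable_sum fun i _ => summable_sum fun j _ => ?_
  exact (hsum i j).mul_right _

/-- entry evaluation as a continuous linear map -/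
noncomputable def entryCLM (i j : Fin q) : Matrix (Fin q) (Fin q) ℂ →L[ℂ] ℂ :=
  LinearMap.toContinuousLinearMap (Matrix.entryLinearMap ℂ ℂ i j)

/-- the matrix trace as a continuous linear map -/
noncomputable def traceCLM : Matrix (Fin q) (Fin q) ℂ →L[ℂ] ℂ :=
  LinearMap.toContinuousLinearMap (Matrix.traceLinearMap (Fin q) ℂ ℂ)

theorem matrix_vanishing (e : G → Matrix (Fin q) (Fin q) ℂ)
    (hsum : ∀ i j, Summable (fun g => ‖e g i j‖))
    (hidem : ∀ g i j, ∑' h, (e h * e (h⁻¹ * g)) i j = e g i j)
    (φ : G → ℝ) (hφ : ∀ a b, φ (a * b) = φ a + φ b)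
    (g₀ : G) (hg₀ : φ g₀ ≠ 0) :
    HasSum (fun g : {g : G // IsConj g₀ g} => Matrix.trace (e g.1)) 0 := by
  have : CompleteSpace (Matrix (Fin q) (Fin q) ℂ) := FiniteDimensional.complete ℂ _
  have he : Mem e := mem_of_entries e hsum
  have hconv : conv e e = e := by
    funext g
    ext i j
    have h1 : (entryCLM i j) (∑' h, e h * e (h⁻¹ * g)) = ∑' h, (entryCLM i j) (e h * e (h⁻¹ * g)) :=
      (entryCLM i j).map_tsum (summable_term he he g)
    exact h1.trans (hidem g i j)
  have hφconj : ∀ x, IsConj g₀ x → φ x = φ g₀ := by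
    intro x hx
    obtain ⟨c, rfl⟩ := isConj_iff.1 hx
    have hinv : φ c⁻¹ = -φ c := by
      have h1 : φ 1 = 0 := by
        have := hφ 1 1
        rw [mul_one] at this
        linarith
      have := hφ c c⁻¹
      rw [mul_inv_cancel, h1] at this
      linarith
    rw [hφ, hφ, hinv]
    ring
  have hzero : tauFun (traceCLM (q := q)) {x | IsConj g₀ x} e = 0 :=
    tau_eq_zero traceCLM (fun a b => Matrix.trace_mul_comm a b) {x | IsConj g₀ x}
      (fun g h => isConj_mul_swap g₀ g h) he hconv φ hφ hg₀ hφconj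
  have hs : HasSum (Set.indicator {x | IsConj g₀ x} (fun x => traceCLM (e x)))
      (tauFun (traceCLM (q := q)) {x | IsConj g₀ x} e) :=
    (summable_tau (traceCLM (q := q)) {x | IsConj g₀ x} he).hasSum
  rw [hzero] at hs
  exact (hasSum_subtype_iff_indicator (s := {x | IsConj g₀ x})
    (f := fun x => Matrix.trace (e x))).2 hs

end

end Helper13.L1Conv
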