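import Mathlib
import Vale.Agent.Helper13.L1BassMatrix

/-!
# Elements of infinite order modulo the commutator subgroup are seen by a real character

If no positive power of `g₀` lies in the commutator subgroup of `G`, there is an additive
map `φ : G → ℝ` with `φ g₀ = 1` (extend `n • [g₀] ↦ n` from the cyclic subgroup of the
abelianisation, using that `ℝ` is divisible).  Combined with `matrix_vanishing` this gives
the vanishing theorem in its intrinsic form.
-/

namespace Helper13.L1Conv

theorem exists_character {G : Type*} [Group G] (g₀ : G)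
    (h : ∀ k : ℕ, 0 < k → g₀ ^ k ∉ commutator G) :
    ∃ φ : G → ℝ, (∀ a b, φ (a * b) = φ a + φ b) ∧ φ g₀ ≠ 0 := by
  let b : Additive (Abelianization G) := Additive.ofMul (Abelianization.of g₀)
  let f : ℤ →+ Additive (Abelianization G) := zmultiplesHom _ b
  have hpow : ∀ k : ℕ, 0 < k → (Abelianization.of g₀) ^ k ≠ 1 := by
    intro k hk h1
    apply h k hk
    rw [← Abelianization.ker_of, MonoidHom.mem_ker, map_pow]
    exact h1
  have hf : Function.Injective f := by
    rw [injective_iff_map_eq_zero]
    intro n hn
    by_contra hne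
    have hk : 0 < n.natAbs := Int.natAbs_pos.2 hne
    have hn' : (Abelianization.of g₀) ^ n = 1 := by
      have : n • b = 0 := by simpa [f] using hn
      exact congrArg Additive.toMul this
    apply hpow n.natAbs hk
    rcases Int.natAbs_eq n with h1 | h1
    · rw [h1] at hn'
      simpa using hn'
    · rw [h1] at hn'
      simpa using hn'
  obtain ⟨hh, hcomp⟩ :=
    (Module.Baer.of_divisible ℝ).extension_property_addMonoidHom f hf (Int.castAddHom ℝ)
  refine ⟨fun x => hh (Additive.ofMul (Abelianization.of x)), fun x y => ?_, ?_⟩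
  · show hh (Additive.ofMul (Abelianization.of (x * y))) = _
    rw [map_mul, ofMul_mul, map_add]
  · have h1 : hh b = 1 := by
      have := congrArg (fun F : ℤ →+ ℝ => F 1) hcomp
      simpa [f] using this
    show hh b ≠ 0
    rw [h1]
    exact one_ne_zero

/-- **Vanishing of the Hattori-Stallings coefficients of `ℓ¹` idempotent matrices at classes
of infinite order modulo commutators.** -/
theorem matrix_vanishing_commutator {G : Type*} [Group G] {q : ℕ}
    (e : G → Matrix (Fin q) (Fin q) ℂ)
    (hsum : ∀ i j, Summable (fun g => ‖e g i j‖))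
    (hidem : ∀ g i j, ∑' h, (e h * e (h⁻¹ * g)) i j = e g i j)
    (g₀ : G) (hg₀ : ∀ k : ℕ, 0 < k → g₀ ^ k ∉ commutator G) :
    HasSum (fun g : {g : G // IsConj g₀ g} => Matrix.trace (e g.1)) 0 := by
  obtain ⟨φ, hφ, hφ0⟩ := exists_character g₀ hg₀
  exact matrix_vanishing e hsum hidem φ hφ g₀ hφ0

end Helper13.L1Conv
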