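import Mathlib

/-!
Elementary maximum principle tools for twice continuously differentiable functions on a
finite dimensional real inner product space, with explicit radial barriers of the form
`α (log ‖x‖)^2 + β log ‖x‖ + γ`.
-/

namespace Vale.Agent.Helper13

open Filter Topology

section line

variable {E : Type*} [NormedAddCommGroup E] [NormedSpace ℝ E]

/-- The second directional derivative is a one-variable second derivative along a line. -/
theorem iteratedFDeriv_two_eq_deriv_deriv_line {f : E → ℝ} {x : E} (hf : ContDiffAt ℝ 2 f x)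
    (v : E) :
    iteratedFDeriv ℝ 2 f x ![v, v] = deriv (deriv (fun t : ℝ => f (x + t • v))) 0 := by
  rw [iteratedFDeriv_two_apply]
  simp only [Matrix.cons_val_zero, Matrix.cons_val_one]
  have hline : ∀ t : ℝ, HasDerivAt (fun t : ℝ => x + t • v) v t := by
    intro t
    simpa using ((hasDerivAt_id t).smul_const v).const_add x
  have hcont : ContinuousAt (fun t : ℝ => x + t • v) 0 := (hline 0).continuousAt
  have hx0 : x + (0:ℝ) • v = x := by simp
  have hev : ∀ᶠ y in 𝓝 x, ContDiffAt ℝ 2 f y := hf.eventually (by simp)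
  have hev' : ∀ᶠ t in 𝓝 (0 : ℝ), ContDiffAt ℝ 2 f (x + t • v) := by
    have h0 : ∀ᶠ y in 𝓝 ((fun t : ℝ => x + t • v) 0), ContDiffAt ℝ 2 f y := by
      simpa using hev
    exact hcont.eventually h0
  have hderiv : deriv (fun t : ℝ => f (x + t • v)) =ᶠ[𝓝 0] fun t => fderiv ℝ f (x + t • v) v := by
    filter_upwards [hev'] with t ht
    have hd : DifferentiableAt ℝ f (x + t • v) := ht.differentiableAt (by norm_num)
    exact (hd.hasFDerivAt.comp_hasDerivAt t (hline t)).deriv
  rw [hderiv.deriv_eq]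
  have hf' : DifferentiableAt ℝ (fderiv ℝ f) x :=
    (hf.fderiv_right (m := 1) (by norm_num)).differentiableAt (by norm_num)
  have h2 : HasDerivAt (fun t : ℝ => fderiv ℝ f (x + t • v)) (fderiv ℝ (fderiv ℝ f) x v) 0 := by
    have h := hf'.hasFDerivAt
    rw [← hx0] at h
    have h' := h.comp_hasDerivAt (0:ℝ) (hline 0)
    rw [hx0] at h'
    exact h'
  have h3 : HasDerivAt (fun t : ℝ => fderiv ℝ f (x + t • v) v) (fderiv ℝ (fderiv ℝ f) x v v) 0 := by
    have := h2.clm_apply (hasDerivAt_const (0:ℝ) v)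
    simpa using this
  exact h3.deriv.symm

/-- One variable: at a local minimum the second derivative is nonnegative. -/
theorem deriv_deriv_nonneg_of_isLocalMin {g : ℝ → ℝ} {t₀ : ℝ} (hmin : IsLocalMin g t₀)
    (hc : ContinuousAt g t₀) : 0 ≤ deriv (deriv g) t₀ := by
  by_contra hneg
  have hneg' : deriv (deriv g) t₀ < 0 := not_le.mp hneg
  have hd : deriv g t₀ = 0 := hmin.deriv_eq_zero
  have hmax : IsLocalMax g t₀ := isLocalMax_of_deriv_deriv_neg hneg' hd hc
  have hconst : g =ᶠ[𝓝 t₀] fun _ => g t₀ := by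
    filter_upwards [hmin, hmax] with t h1 h2
    exact le_antisymm h2 h1
  have h1 : deriv g =ᶠ[𝓝 t₀] deriv (fun _ => g t₀) := hconst.deriv
  have h2 : deriv (deriv g) t₀ = deriv (deriv (fun _ : ℝ => g t₀)) t₀ := h1.deriv_eq
  simp at h2
  linarith

theorem iteratedFDeriv_two_nonneg_of_isLocalMin {f : E → ℝ} {x : E} (hf : ContDiffAt ℝ 2 f x)
    (hmin : IsLocalMin f x) (v : E) : 0 ≤ iteratedFDeriv ℝ 2 f x ![v, v] := by
  rw [iteratedFDeriv_two_eq_deriv_deriv_line hf v]
  have hcont : ContinuousAt (fun t : ℝ => x + t • v) 0 := by fun_prop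
  have hx0 : x + (0:ℝ) • v = x := by simp
  apply deriv_deriv_nonneg_of_isLocalMin
  · have h0 : ∀ᶠ y in 𝓝 ((fun t : ℝ => x + t • v) 0), f x ≤ f y := by
      rw [show (fun t : ℝ => x + t • v) 0 = x from hx0]
      exact hmin
    have := hcont.eventually h0
    show ∀ᶠ t in 𝓝 (0:ℝ), f (x + (0:ℝ) • v) ≤ f (x + t • v)
    rw [hx0]
    exact this
  · have hfc : ContinuousAt f (x + (0:ℝ) • v) := by
      rw [hx0]; exact hf.continuousAt
    exact ContinuousAt.comp (f := fun t : ℝ => x + t • v) (g := f) hfc hcont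

end line

/-- One-variable computation behind the radial barrier. -/
theorem deriv_deriv_logquad (α β γ a s : ℝ) (hs : 0 < s) :
    deriv (deriv (fun t : ℝ => α * ((1/2) * Real.log (s + 2 * a * t + t ^ 2)) ^ 2
      + β * ((1/2) * Real.log (s + 2 * a * t + t ^ 2)) + γ)) 0
    = 2 * α * a ^ 2 / s ^ 2 + (α * Real.log s + β) * (1 / s - 2 * a ^ 2 / s ^ 2) := by
  set q : ℝ → ℝ := fun t => s + 2 * a * t + t ^ 2 with hq
  have hqd : ∀ t, HasDerivAt q (2 * a + 2 * t) t := by
    intro t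
    have h1 : HasDerivAt (fun t : ℝ => s + 2 * a * t) (2 * a) t := by
      simpa using ((hasDerivAt_id t).const_mul (2 * a)).const_add s
    have h2 : HasDerivAt (fun t : ℝ => t ^ 2) (2 * t) t := by
      simpa using hasDerivAt_pow 2 t
    exact h1.add h2
  have hq0 : q 0 = s := by simp [hq]
  have hqpos : ∀ᶠ t in 𝓝 (0:ℝ), 0 < q t := by
    have hc : ContinuousAt q 0 := (hqd 0).continuousAt
    exact hc.eventually (lt_mem_nhds (by rw [hq0]; exact hs))
  have hlog : ∀ t, 0 < q t → HasDerivAt (fun t => Real.log (q t)) ((2 * a + 2 * t) / q t) t := by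
    intro t ht
    exact (hqd t).log ht.ne'
  have hD : deriv (fun t : ℝ => α * ((1/2) * Real.log (q t)) ^ 2
      + β * ((1/2) * Real.log (q t)) + γ)
      =ᶠ[𝓝 0] fun t => (α / 2 * Real.log (q t) + β / 2) * ((2 * a + 2 * t) / q t) := by
    filter_upwards [hqpos] with t ht
    have h1 := ((hlog t ht).const_mul (1/2 : ℝ))
    have h2 := ((h1.pow 2).const_mul α).add (h1.const_mul β)
    have h3 : HasDerivAt (fun t : ℝ => α * ((1/2) * Real.log (q t)) ^ 2
      + β * ((1/2) * Real.log (q t)) + γ) _ t := h2.add_const γ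
    rw [h3.deriv]
    simp only [Nat.cast_ofNat, Nat.add_one_sub_one, pow_one]
    ring
  rw [hD.deriv_eq]
  have h0 : HasDerivAt (fun t => (α / 2 * Real.log (q t) + β / 2) * ((2 * a + 2 * t) / q t))
      ((α / 2 * ((2 * a + 2 * 0) / q 0)) * ((2 * a + 2 * 0) / q 0)
        + (α / 2 * Real.log (q 0) + β / 2)
          * ((2 * q 0 - (2 * a + 2 * 0) * (2 * a + 2 * 0)) / (q 0) ^ 2)) 0 := by
    have hq0pos : 0 < q 0 := by rw [hq0]; exact hs
    have h1 := ((hlog 0 hq0pos).const_mul (α / 2)).add_const (β / 2)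
    have hnum : HasDerivAt (fun t : ℝ => 2 * a + 2 * t) 2 0 := by
      simpa using ((hasDerivAt_id (0:ℝ)).const_mul 2).const_add (2 * a)
    have h2 := hnum.div (hqd 0) hq0pos.ne'
    exact h1.mul h2
  rw [h0.deriv, hq0]
  field_simp
  ring

section inner

variable {F : Type*} [NormedAddCommGroup F] [InnerProductSpace ℝ F]

/-- The log-quadratic radial barrier `α (log ‖y‖)^2 + β log ‖y‖ + γ`. -/
noncomputable def logQuad (α β γ : ℝ) (y : F) : ℝ :=
  α * (Real.log ‖y‖) ^ 2 + β * Real.log ‖y‖ + γ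

theorem contDiffAt_logQuad (α β γ : ℝ) {x : F} (hx : x ≠ 0) :
    ContDiffAt ℝ 2 (logQuad α β γ : F → ℝ) x := by
  have h1 : ContDiffAt ℝ 2 (fun y : F => Real.log ‖y‖) x :=
    (contDiffAt_norm ℝ hx).log (norm_ne_zero_iff.2 hx)
  unfold logQuad
  exact ((contDiffAt_const.mul (h1.pow 2)).add (contDiffAt_const.mul h1)).add contDiffAt_const

variable [FiniteDimensional ℝ F]

open Laplacian InnerProductSpace in
/-- At a local minimum of a twice continuously differentiable function the Laplacian is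
nonnegative. -/
theorem laplacian_nonneg_of_isLocalMin {f : F → ℝ} {x : F} (hf : ContDiffAt ℝ 2 f x)
    (hmin : IsLocalMin f x) : 0 ≤ Δ f x := by
  rw [laplacian_eq_iteratedFDeriv_stdOrthonormalBasis]
  exact Finset.sum_nonneg fun i _ => iteratedFDeriv_two_nonneg_of_isLocalMin hf hmin _

open Laplacian InnerProductSpace in
/-- The Laplacian of the log-quadratic radial barrier. -/
theorem laplacian_logQuad {ι : Type*} [Fintype ι] (b : OrthonormalBasis ι ℝ F) (α β γ : ℝ)
    {x : F} (hx : x ≠ 0) :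
    Δ (logQuad α β γ : F → ℝ) x
      = (2 * α + ((Fintype.card ι : ℝ) - 2) * (2 * α * Real.log ‖x‖ + β)) / ‖x‖ ^ 2 := by
  have hs : 0 < ‖x‖ ^ 2 := by positivity
  rw [laplacian_eq_iteratedFDeriv_orthonormalBasis _ b]
  have hterm : ∀ i, iteratedFDeriv ℝ 2 (logQuad α β γ : F → ℝ) x ![b i, b i]
      = 2 * α * (inner ℝ x (b i)) ^ 2 / (‖x‖ ^ 2) ^ 2
        + (α * Real.log (‖x‖ ^ 2) + β)
          * (1 / ‖x‖ ^ 2 - 2 * (inner ℝ x (b i)) ^ 2 / (‖x‖ ^ 2) ^ 2) := by
    intro i
    rw [iteratedFDeriv_two_eq_deriv_deriv_line (contDiffAt_logQuad α β γ hx)]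
    rw [← deriv_deriv_logquad α β γ (inner ℝ x (b i)) (‖x‖ ^ 2) hs]
    congr 2
    funext t
    have hnorm : ‖x + t • b i‖ ^ 2 = ‖x‖ ^ 2 + 2 * inner ℝ x (b i) * t + t ^ 2 := by
      rw [norm_add_sq_real, inner_smul_right, norm_smul, b.norm_eq_one]
      simp only [Real.norm_eq_abs, mul_one, sq_abs]
      ring
    have hlog : Real.log ‖x + t • b i‖
        = 1 / 2 * Real.log (‖x‖ ^ 2 + 2 * inner ℝ x (b i) * t + t ^ 2) := by
      rw [← hnorm, Real.log_pow]
      push_cast
      ring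
    unfold logQuad
    rw [hlog]
  simp only [hterm]
  rw [Finset.sum_add_distrib, ← Finset.mul_sum, Finset.sum_sub_distrib]
  simp only [← Finset.sum_div, ← Finset.mul_sum, b.sum_sq_inner_left, Finset.sum_const,
    Finset.card_univ, nsmul_eq_mul]
  rw [Real.log_pow]
  field_simp
  push_cast
  ring

open Laplacian InnerProductSpace in
/-- Minimum principle on a closed annulus: a continuous function which is twice continuously
differentiable with negative Laplacian in the open annulus is bounded below on the annulus by any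
lower bound valid on the two boundary spheres. -/
theorem annulus_min_principle {w : F → ℝ} {δ ρ m : ℝ}
    (hcont : ContinuousOn w {y | δ ≤ ‖y‖ ∧ ‖y‖ ≤ ρ})
    (hC2 : ∀ y, δ < ‖y‖ → ‖y‖ < ρ → ContDiffAt ℝ 2 w y)
    (hlap : ∀ y, δ < ‖y‖ → ‖y‖ < ρ → Δ w y < 0)
    (hbd : ∀ y, ‖y‖ = δ ∨ ‖y‖ = ρ → m ≤ w y)
    {x : F} (hx1 : δ ≤ ‖x‖) (hx2 : ‖x‖ ≤ ρ) : m ≤ w x := by
  have hKc : IsCompact {y : F | δ ≤ ‖y‖ ∧ ‖y‖ ≤ ρ} := by
    have h1 : {y : F | δ ≤ ‖y‖ ∧ ‖y‖ ≤ ρ} = {y : F | δ ≤ ‖y‖} ∩ Metric.closedBall 0 ρ := by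
      ext y; simp [Metric.mem_closedBall, dist_zero_right]
    rw [h1]
    exact (isCompact_closedBall 0 ρ).inter_left (isClosed_le continuous_const continuous_norm)
  obtain ⟨z, hzK, hzmin⟩ := hKc.exists_isMinOn ⟨x, hx1, hx2⟩ hcont
  have hzx : w z ≤ w x := hzmin ⟨hx1, hx2⟩
  by_cases hb : ‖z‖ = δ ∨ ‖z‖ = ρ
  · exact (hbd z hb).trans hzx
  · exfalso
    have h1 : δ < ‖z‖ := lt_of_le_of_ne hzK.1 (fun h => hb (Or.inl h.symm))
    have h2 : ‖z‖ < ρ := lt_of_le_of_ne hzK.2 (fun h => hb (Or.inr h))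
    have hopen : {y : F | δ < ‖y‖ ∧ ‖y‖ < ρ} ∈ 𝓝 z := by
      have ho : IsOpen {y : F | δ < ‖y‖ ∧ ‖y‖ < ρ} :=
        (isOpen_lt continuous_const continuous_norm).inter
          (isOpen_lt continuous_norm continuous_const)
      exact ho.mem_nhds ⟨h1, h2⟩
    have hloc : IsLocalMin w z := by
      filter_upwards [hopen] with y hy
      exact hzmin ⟨hy.1.le, hy.2.le⟩
    have := laplacian_nonneg_of_isLocalMin (hC2 z h1 h2) hloc
    linarith [hlap z h1 h2]

end inner

section barriers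

open Laplacian InnerProductSpace

variable {F : Type*} [NormedAddCommGroup F] [InnerProductSpace ℝ F] [FiniteDimensional ℝ F]

omit [FiniteDimensional ℝ F] in
theorem continuousOn_logQuad (α β γ : ℝ) (s : Set F) (hs : ∀ y ∈ s, y ≠ 0) :
    ContinuousOn (logQuad α β γ : F → ℝ) s := fun y hy =>
  (contDiffAt_logQuad α β γ (hs y hy)).continuousAt.continuousWithinAt

/-- No positive function on a punctured neighbourhood of the origin, bounded near the origin, can
satisfy `-Δ u ≥ c / ‖x‖^2` with `c > 0` (dimension at least two). -/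
theorem no_pos_singular_superharmonic {ι : Type*} [Fintype ι] (b : OrthonormalBasis ι ℝ F)
    (hcard : 2 ≤ Fintype.card ι) {u : F → ℝ} (hu : ContDiffOn ℝ 2 u {0}ᶜ) (hcont : Continuous u)
    (hpos : ∀ x, x ≠ 0 → 0 < u x) {c : ℝ} (hc : 0 < c)
    (hlap : ∀ x, x ≠ 0 → ‖x‖ ≤ 1 → c / ‖x‖ ^ 2 ≤ -(Δ u x)) : False := by
  obtain ⟨C, hC⟩ := (isCompact_closedBall (0:F) 1).exists_bound_of_continuousOn hcont.continuousOn
  have hn : (2:ℝ) ≤ (Fintype.card ι : ℝ) := by exact_mod_cast hcard
  set n : ℝ := (Fintype.card ι : ℝ) with hndef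
  set a : ℝ := c / 2 with ha
  have hapos : 0 < a := by positivity
  set D : ℝ := |4 * n * C / a| + 1 with hD
  have hD1 : 1 ≤ D := by have := abs_nonneg (4 * n * C / a); linarith
  have hDC : 4 * n * C / a < D := by have := le_abs_self (4 * n * C / a); linarith
  have hden : 0 < 2 + (n - 2) * D := by nlinarith
  set κ : ℝ := a / (2 + (n - 2) * D) with hκ
  have hκpos : 0 < κ := by positivity
  set g : F → ℝ := logQuad (-κ) (-κ * D) 0 with hg
  have hgval : ∀ y : F, g y = κ * (-Real.log ‖y‖) * (Real.log ‖y‖ + D) := by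
    intro y; simp only [hg, logQuad]; ring
  have hδ1 : Real.exp (-D) < 1 := by rw [Real.exp_lt_one_iff]; linarith
  have hδpos : 0 < Real.exp (-D) := Real.exp_pos _
  -- the comparison function
  have hne : ∀ y : F, Real.exp (-D) ≤ ‖y‖ → y ≠ 0 := by
    intro y hy h0
    rw [h0, norm_zero] at hy
    linarith
  have key : ∀ x : F, Real.exp (-D) ≤ ‖x‖ → ‖x‖ ≤ 1 → 0 ≤ (u - g) x := by
    intro x hx1 hx2
    refine annulus_min_principle (w := u - g) (δ := Real.exp (-D)) (ρ := 1) (m := 0)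
      ?_ ?_ ?_ ?_ hx1 hx2
    · refine ContinuousOn.sub hcont.continuousOn ?_
      exact continuousOn_logQuad _ _ _ _ (fun y hy => hne y hy.1)
    · intro y hy1 hy2
      have hy0 : y ≠ 0 := hne y hy1.le
      exact (hu.contDiffAt (isOpen_compl_singleton.mem_nhds hy0)).sub (contDiffAt_logQuad _ _ _ hy0)
    · intro y hy1 hy2
      have hy0 : y ≠ 0 := hne y hy1.le
      have hypos : 0 < ‖y‖ := norm_pos_iff.2 hy0
      rw [(hu.contDiffAt (isOpen_compl_singleton.mem_nhds hy0)).laplacian_sub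
        (contDiffAt_logQuad _ _ _ hy0), laplacian_logQuad b _ _ _ hy0]
      have h1 := hlap y hy0 hy2.le
      have hlog : Real.log ‖y‖ < 0 := Real.log_neg hypos hy2
      have hsq : 0 < ‖y‖ ^ 2 := by positivity
      have h2 : (2 * -κ + (n - 2) * (2 * -κ * Real.log ‖y‖ + -κ * D)) / ‖y‖ ^ 2
          = -(κ * (2 + (n - 2) * (2 * Real.log ‖y‖ + D))) / ‖y‖ ^ 2 := by ring
      rw [h2]
      have h3 : κ * (2 + (n - 2) * (2 * Real.log ‖y‖ + D)) ≤ a := by
        have h4 : κ * (2 + (n - 2) * D) = a := by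
          rw [hκ]; field_simp
        have h5 : (n - 2) * (2 * Real.log ‖y‖ + D) ≤ (n - 2) * D := by
          apply mul_le_mul_of_nonneg_left _ (by linarith)
          linarith
        nlinarith
      have h6 : a / ‖y‖ ^ 2 < c / ‖y‖ ^ 2 := by
        apply div_lt_div_of_pos_right _ hsq
        rw [ha]; linarith
      have h7 : κ * (2 + (n - 2) * (2 * Real.log ‖y‖ + D)) / ‖y‖ ^ 2 ≤ a / ‖y‖ ^ 2 :=
        div_le_div_of_nonneg_right h3 hsq.le
      have h8 : -(κ * (2 + (n - 2) * (2 * Real.log ‖y‖ + D))) / ‖y‖ ^ 2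
          = -(κ * (2 + (n - 2) * (2 * Real.log ‖y‖ + D)) / ‖y‖ ^ 2) := by ring
      rw [h8]
      linarith
    · intro y hy
      have hy0 : y ≠ 0 := by
        rcases hy with h | h
        · exact hne y h.ge
        · intro h0; rw [h0, norm_zero] at h; norm_num at h
      have hg0 : g y = 0 := by
        rw [hgval]
        rcases hy with h | h
        · rw [h, Real.log_exp]; ring
        · rw [h, Real.log_one]; ring
      show 0 ≤ u y - g y
      rw [hg0]
      linarith [hpos y hy0]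
  -- evaluate at the midpoint
  have hι : Nonempty ι := by
    have : 0 < Fintype.card ι := by omega
    exact Fintype.card_pos_iff.mp this
  obtain ⟨i₀⟩ := hι
  set x : F := Real.exp (-D / 2) • b i₀ with hx
  have hxnorm : ‖x‖ = Real.exp (-D / 2) := by
    rw [hx, norm_smul, b.norm_eq_one, mul_one, Real.norm_eq_abs, abs_of_pos (Real.exp_pos _)]
  have hx1 : Real.exp (-D) ≤ ‖x‖ := by
    rw [hxnorm]; exact Real.exp_le_exp.2 (by linarith)
  have hx2 : ‖x‖ ≤ 1 := by
    rw [hxnorm]; exact (Real.exp_le_one_iff).2 (by linarith)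
  have h1 := key x hx1 hx2
  have h2 : g x = κ * D ^ 2 / 4 := by
    rw [hgval, hxnorm, Real.log_exp]; ring
  have h3 : u x ≤ C := by
    have := hC x (by simpa [Metric.mem_closedBall, dist_zero_right] using hx2)
    exact (le_abs_self _).trans this
  have h4 : (u - g) x = u x - g x := rfl
  rw [h4, h2] at h1
  have h5 : a * D / (4 * n) ≤ κ * D ^ 2 / 4 := by
    rw [hκ]
    rw [div_le_iff₀ (by positivity)]
    have h6 : a / (2 + (n - 2) * D) * D ^ 2 / 4 * (4 * n) = a * D * (D * n / (2 + (n - 2) * D)) := by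
      field_simp
    rw [h6]
    have h7 : 1 ≤ D * n / (2 + (n - 2) * D) := by
      rw [le_div_iff₀ hden]; nlinarith
    nlinarith [mul_pos hapos (lt_of_lt_of_le one_pos hD1)]
  have h6 : C < a * D / (4 * n) := by
    rw [lt_div_iff₀ (by positivity)]
    have := (div_lt_iff₀ hapos).1 hDC
    linarith
  linarith

/-- comparison with the logarithmic harmonic barrier in dimension two -/
theorem planar_log_comparison {ι : Type*} [Fintype ι] (b : OrthonormalBasis ι ℝ F)
    (hcard : Fintype.card ι = 2) {u : F → ℝ} (hu : ContDiffOn ℝ 2 u {0}ᶜ)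
    (hpos : ∀ x, x ≠ 0 → 0 < u x) (hlap : ∀ x, x ≠ 0 → Δ u x < 0)
    {m₁ : ℝ} (hm : ∀ y : F, ‖y‖ = 1 → m₁ ≤ u y)
    {δ ρ T : ℝ} (hδ : 0 < δ) (hT : (δ = 1 ∧ ρ = T) ∨ (δ = T ∧ ρ = 1)) (hT1 : T ≠ 1)
    {x : F} (hx1 : δ ≤ ‖x‖) (hx2 : ‖x‖ ≤ ρ) :
    m₁ * (1 - Real.log ‖x‖ / Real.log T) ≤ u x := by
  have hTpos : 0 < T := by
    rcases hT with ⟨h1, h2⟩ | ⟨h1, h2⟩
    · have : 0 < ‖x‖ := lt_of_lt_of_le hδ hx1
      rw [← h2]; linarith
    · rw [← h1]; exact hδ
  have hlogT : Real.log T ≠ 0 := by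
    intro h
    rcases Real.log_eq_zero.1 h with h | h | h <;> [linarith; exact hT1 h; linarith]
  have hne : ∀ y : F, δ ≤ ‖y‖ → y ≠ 0 := by
    intro y hy h0
    rw [h0, norm_zero] at hy
    linarith
  set H : F → ℝ := logQuad 0 (-m₁ / Real.log T) m₁ with hH
  have hHval : ∀ y : F, H y = m₁ * (1 - Real.log ‖y‖ / Real.log T) := by
    intro y; simp only [hH, logQuad]; ring
  have key : 0 ≤ (u - H) x := by
    refine annulus_min_principle (w := u - H) (δ := δ) (ρ := ρ) (m := 0) ?_ ?_ ?_ ?_ hx1 hx2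
    · refine ContinuousOn.sub ?_ ?_
      · exact hu.continuousOn.mono (fun y hy => hne y hy.1)
      · exact continuousOn_logQuad _ _ _ _ (fun y hy => hne y hy.1)
    · intro y hy1 hy2
      have hy0 : y ≠ 0 := hne y hy1.le
      exact (hu.contDiffAt (isOpen_compl_singleton.mem_nhds hy0)).sub (contDiffAt_logQuad _ _ _ hy0)
    · intro y hy1 hy2
      have hy0 : y ≠ 0 := hne y hy1.le
      rw [(hu.contDiffAt (isOpen_compl_singleton.mem_nhds hy0)).laplacian_sub
        (contDiffAt_logQuad _ _ _ hy0), laplacian_logQuad b _ _ _ hy0, hcard]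
      have := hlap y hy0
      norm_num
      exact this
    · intro y hy
      have hy0 : y ≠ 0 := by
        rcases hy with h | h
        · exact hne y h.ge
        · exact hne y (by rw [h]; exact hx1.trans hx2)
      show 0 ≤ u y - H y
      rw [hHval]
      have hcase : ‖y‖ = 1 ∨ ‖y‖ = T := by
        rcases hT with ⟨h1, h2⟩ | ⟨h1, h2⟩
        · rcases hy with h | h
          · left; rw [h, h1]
          · right; rw [h, h2]
        · rcases hy with h | h
          · right; rw [h, h1]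
          · left; rw [h, h2]
      rcases hcase with h | h
      · rw [h, Real.log_one]
        have := hm y h
        simp
        linarith
      · rw [h, div_self hlogT]
        have := hpos y hy0
        simp
        linarith
  have h4 : (u - H) x = u x - H x := rfl
  rw [h4, hHval] at key
  linarith

/-- In dimension two there is no positive twice continuously differentiable function on the
punctured plane with everywhere negative Laplacian. -/
theorem no_pos_superharmonic_punctured_plane {ι : Type*} [Fintype ι] (b : OrthonormalBasis ι ℝ F)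
    (hcard : Fintype.card ι = 2) {u : F → ℝ} (hu : ContDiffOn ℝ 2 u {0}ᶜ)
    (hpos : ∀ x, x ≠ 0 → 0 < u x) (hlap : ∀ x, x ≠ 0 → Δ u x < 0) : False := by
  have hι : Nonempty ι := by
    have : 0 < Fintype.card ι := by omega
    exact Fintype.card_pos_iff.mp this
  obtain ⟨i₀⟩ := hι
  have hSne : (Metric.sphere (0:F) 1).Nonempty := ⟨b i₀, by simp⟩
  have hSsub : Metric.sphere (0:F) 1 ⊆ {0}ᶜ := by
    intro y hy h0
    rw [Set.mem_singleton_iff.1 h0] at hy
    simp at hy
  obtain ⟨x₁, hx₁S, hx₁min⟩ := (isCompact_sphere (0:F) 1).exists_isMinOn hSne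
    (hu.continuousOn.mono hSsub)
  have hx₁norm : ‖x₁‖ = 1 := by simpa using hx₁S
  have hx₁0 : x₁ ≠ 0 := hSsub hx₁S
  have hm : ∀ y : F, ‖y‖ = 1 → u x₁ ≤ u y := fun y hy => hx₁min (by simpa using hy)
  have hm₁pos : 0 < u x₁ := hpos x₁ hx₁0
  have hglobal : ∀ x : F, x ≠ 0 → u x₁ ≤ u x := by
    intro x hx0
    by_cases hx1 : ‖x‖ = 1
    · exact hm x hx1
    · have hxpos : 0 < ‖x‖ := norm_pos_iff.2 hx0
      have hlogx : Real.log ‖x‖ ≠ 0 := by
        intro h
        rcases Real.log_eq_zero.1 h with h | h | h <;> [linarith; exact hx1 h; linarith]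
      have hk : ∀ k : ℕ, 2 ≤ k → u x₁ * (1 - 1 / (k:ℝ)) ≤ u x := by
        intro k hk2
        have hkpos : (0:ℝ) < k := by exact_mod_cast (by omega : 0 < k)
        have hTpos : 0 < ‖x‖ ^ k := by positivity
        have hT1 : ‖x‖ ^ k ≠ 1 := by
          intro h
          have := (pow_eq_one_iff_of_nonneg hxpos.le (by omega)).1 h
          exact hx1 this
        have hlogT : Real.log (‖x‖ ^ k) = k * Real.log ‖x‖ := Real.log_pow _ _
        have hratio : Real.log ‖x‖ / Real.log (‖x‖ ^ k) = 1 / (k:ℝ) := by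
          rw [hlogT]; field_simp
        rw [← hratio]
        rcases lt_or_gt_of_ne hx1 with hlt | hgt
        · -- ‖x‖ < 1
          refine planar_log_comparison b hcard hu hpos hlap hm (δ := ‖x‖ ^ k) (ρ := 1)
            (T := ‖x‖ ^ k) hTpos (Or.inr ⟨rfl, rfl⟩) hT1 ?_ hlt.le
          calc ‖x‖ ^ k ≤ ‖x‖ ^ 1 := pow_le_pow_of_le_one hxpos.le hlt.le (by omega)
            _ = ‖x‖ := pow_one _
        · refine planar_log_comparison b hcard hu hpos hlap hm (δ := 1) (ρ := ‖x‖ ^ k)
            (T := ‖x‖ ^ k) one_pos (Or.inl ⟨rfl, rfl⟩) hT1 hgt.le ?_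
          calc ‖x‖ = ‖x‖ ^ 1 := (pow_one _).symm
            _ ≤ ‖x‖ ^ k := pow_le_pow_right₀ hgt.le (by omega)
      by_contra hlt
      have hlt' : u x < u x₁ := not_le.mp hlt
      obtain ⟨k, hk1⟩ := exists_nat_gt (max 2 (u x₁ / (u x₁ - u x)))
      have hk2 : (2:ℝ) < k := lt_of_le_of_lt (le_max_left _ _) hk1
      have hk3 : u x₁ / (u x₁ - u x) < k := lt_of_le_of_lt (le_max_right _ _) hk1
      have hk2' : 2 ≤ k := by exact_mod_cast hk2.le
      have h1 := hk k hk2'
      have hkpos : (0:ℝ) < k := by linarith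
      have h2 : u x₁ < k * (u x₁ - u x) := (div_lt_iff₀ (by linarith)).1 hk3
      have h3 : u x₁ * (1 - 1 / (k:ℝ)) = u x₁ - u x₁ / k := by ring
      rw [h3] at h1
      have h4 : u x₁ / k < u x₁ - u x := by
        rw [div_lt_iff₀ hkpos]; linarith
      linarith
  have hloc : IsLocalMin u x₁ := by
    filter_upwards [isOpen_compl_singleton.mem_nhds hx₁0] with y hy
    exact hglobal y hy
  have := laplacian_nonneg_of_isLocalMin (hu.contDiffAt (isOpen_compl_singleton.mem_nhds hx₁0)) hloc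
  linarith [hlap x₁ hx₁0]

end barriers

end Vale.Agent.Helper13
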