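import Vale.Agent.Helper16.KTV.Poincare

/-!
# P328: the Poincare inequality for the switch graph of binary tables, on the subtype of tables

Transfer of `KTV.switch_poincare` (stated for functions on all tables and sums over the finset
`KTV.Omega ρ c`) to real functions on the subtype of tables with the given margins, with the
switch relation written out.  Used by the hand-in `P328.BinaryGap`.
-/

namespace Vale.Agent.Helper13.P328Gap

open Finset Classical

theorem binary_gap {α β : Type} [Fintype α] [DecidableEq α] [Fintype β] [DecidableEq β]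
    (ρ : α → ℕ) (c : β → ℕ)
    (g : {x : α → β → Bool // (∀ a, (Finset.univ.filter fun j => x a j = true).card = ρ a) ∧
        ∀ j, (Finset.univ.filter fun a => x a j = true).card = c j} → ℝ) :
    4 * ∑ x : {x : α → β → Bool // (∀ a, (Finset.univ.filter fun j => x a j = true).card = ρ a) ∧
          ∀ j, (Finset.univ.filter fun a => x a j = true).card = c j},
        (g x - (∑ y : {x : α → β → Bool //
              (∀ a, (Finset.univ.filter fun j => x a j = true).card = ρ a) ∧
                ∀ j, (Finset.univ.filter fun a => x a j = true).card = c j}, g y)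
            / (Fintype.card {x : α → β → Bool //
              (∀ a, (Finset.univ.filter fun j => x a j = true).card = ρ a) ∧
                ∀ j, (Finset.univ.filter fun a => x a j = true).card = c j} : ℝ)) ^ 2
      ≤ ∑ x : {x : α → β → Bool // (∀ a, (Finset.univ.filter fun j => x a j = true).card = ρ a) ∧
            ∀ j, (Finset.univ.filter fun a => x a j = true).card = c j},
          ∑ y : {x : α → β → Bool //
              (∀ a, (Finset.univ.filter fun j => x a j = true).card = ρ a) ∧
                ∀ j, (Finset.univ.filter fun a => x a j = true).card = c j},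
            (if (∃ a b j k, a ≠ b ∧ j ≠ k ∧
                  x.1 a j = true ∧ x.1 b k = true ∧ x.1 a k = false ∧ x.1 b j = false ∧
                  y.1 a j = false ∧ y.1 b k = false ∧ y.1 a k = true ∧ y.1 b j = true ∧
                  ∀ r s, ¬ ((r = a ∨ r = b) ∧ (s = j ∨ s = k)) → y.1 r s = x.1 r s)
              then (g x - g y) ^ 2 else 0) := by
  have hmem : ∀ x : α → β → Bool, x ∈ KTV.Omega ρ c ↔
      ((∀ a, (Finset.univ.filter fun j => x a j = true).card = ρ a) ∧
        ∀ j, (Finset.univ.filter fun a => x a j = true).card = c j) := by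
    intro x
    unfold KTV.Omega KTV.rowSum KTV.colSum
    rw [Finset.mem_filter]
    exact ⟨fun h => h.2, fun h => ⟨Finset.mem_univ _, h⟩⟩
  -- extend `g` by zero to all tables
  set f : (α → β → Bool) → ℝ := fun x =>
    if h : ((∀ a, (Finset.univ.filter fun j => x a j = true).card = ρ a) ∧
        ∀ j, (Finset.univ.filter fun a => x a j = true).card = c j) then g ⟨x, h⟩ else 0 with hf
  have hfg : ∀ x : {x : α → β → Bool //
      (∀ a, (Finset.univ.filter fun j => x a j = true).card = ρ a) ∧
        ∀ j, (Finset.univ.filter fun a => x a j = true).card = c j}, f x.1 = g x := by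
    intro x
    rw [hf]
    simp only
    rw [dif_pos x.2]
  have h := KTV.switch_poincare ρ c f
  have hcard : ((KTV.Omega ρ c).card : ℝ) = (Fintype.card {x : α → β → Bool //
      (∀ a, (Finset.univ.filter fun j => x a j = true).card = ρ a) ∧
        ∀ j, (Finset.univ.filter fun a => x a j = true).card = c j} : ℝ) := by
    rw [Fintype.card_of_subtype (KTV.Omega ρ c) hmem]
  have hs : KTV.sqDev (KTV.Omega ρ c) f
      = ∑ x : {x : α → β → Bool //
          (∀ a, (Finset.univ.filter fun j => x a j = true).card = ρ a) ∧
            ∀ j, (Finset.univ.filter fun a => x a j = true).card = c j},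
        (g x - (∑ y : {x : α → β → Bool //
              (∀ a, (Finset.univ.filter fun j => x a j = true).card = ρ a) ∧
                ∀ j, (Finset.univ.filter fun a => x a j = true).card = c j}, g y)
            / (Fintype.card {x : α → β → Bool //
              (∀ a, (Finset.univ.filter fun j => x a j = true).card = ρ a) ∧
                ∀ j, (Finset.univ.filter fun a => x a j = true).card = c j} : ℝ)) ^ 2 := by
    unfold KTV.sqDev
    rw [Finset.sum_subtype (KTV.Omega ρ c) hmem, Finset.sum_subtype (KTV.Omega ρ c) hmem, hcard]
    refine Finset.sum_congr rfl (fun x _ => ?_)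
    rw [hfg x]
    congr 3
    exact Finset.sum_congr rfl (fun y _ => hfg y)
  have hd : KTV.dirichlet (KTV.Omega ρ c) KTV.IsSwitch f
      = ∑ x : {x : α → β → Bool //
            (∀ a, (Finset.univ.filter fun j => x a j = true).card = ρ a) ∧
              ∀ j, (Finset.univ.filter fun a => x a j = true).card = c j},
          ∑ y : {x : α → β → Bool //
              (∀ a, (Finset.univ.filter fun j => x a j = true).card = ρ a) ∧
                ∀ j, (Finset.univ.filter fun a => x a j = true).card = c j},
            (if (∃ a b j k, a ≠ b ∧ j ≠ k ∧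
                  x.1 a j = true ∧ x.1 b k = true ∧ x.1 a k = false ∧ x.1 b j = false ∧
                  y.1 a j = false ∧ y.1 b k = false ∧ y.1 a k = true ∧ y.1 b j = true ∧
                  ∀ r s, ¬ ((r = a ∨ r = b) ∧ (s = j ∨ s = k)) → y.1 r s = x.1 r s)
              then (g x - g y) ^ 2 else 0) := by
    unfold KTV.dirichlet
    rw [Finset.sum_subtype (KTV.Omega ρ c) hmem]
    refine Finset.sum_congr rfl (fun x _ => ?_)
    rw [Finset.sum_filter, Finset.sum_subtype (KTV.Omega ρ c) hmem]
    refine Finset.sum_congr rfl (fun y _ => ?_)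
    have hiff : KTV.IsSwitch x.1 y.1 ↔ (∃ a b j k, a ≠ b ∧ j ≠ k ∧
                  x.1 a j = true ∧ x.1 b k = true ∧ x.1 a k = false ∧ x.1 b j = false ∧
                  y.1 a j = false ∧ y.1 b k = false ∧ y.1 a k = true ∧ y.1 b j = true ∧
                  ∀ r s, ¬ ((r = a ∨ r = b) ∧ (s = j ∨ s = k)) → y.1 r s = x.1 r s) :=
      Iff.rfl
    by_cases hsw : KTV.IsSwitch x.1 y.1
    · rw [if_pos hsw, if_pos (hiff.mp hsw), hfg x, hfg y]
    · rw [if_neg hsw, if_neg (fun h' => hsw (hiff.mpr h'))]
  rw [hs, hd] at h
  exact h

end Vale.Agent.Helper13.P328Gap
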