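import Vale.Agent.Helper13.StarWCore
import Vale.Agent.Helper16.WnChord

/-!
# The hyperbolic form of the merging inequality (starW) of P254

`G_nonneg_of_chord`: the bilinear form `G(X,Z)` is nonnegative once `X`, `Z` dominate the chord
values `κ x(μ/2)`, `κ z(μ/2)`, `κ = 2 (λ - μ)/μ`.
-/

namespace Vale.Agent.Helper13.StarW

open Real

theorem G_nonneg_of_chord (lam mu V X Z : ℝ) (hmu : 0 < mu) (hV : 0 ≤ V) (hlam : lam = mu + V)
    (hcx : V / (mu / 2) * (sinh (mu / 2) / (sinh (lam / 2) * sinh (lam / 2 + mu / 2))) ≤ X)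
    (hcz : V / (mu / 2) * (sinh (mu / 2) / (cosh (lam / 2) * cosh (lam / 2 + mu / 2))) ≤ Z) :
    4 * sinh (lam - mu) ≤ 1 / 2 * sinh lam * sinh (lam + mu) * (X + Z)
      + 4 * cosh mu * (cosh (lam / 2) ^ 2 * Z - sinh (lam / 2) ^ 2 * X)
      + 1 / 2 * sinh lam * cosh mu * (X * Z) := by
  have hmu' : mu ≠ 0 := hmu.ne'
  have hlampos : 0 < lam := by linarith
  obtain ⟨t, ht⟩ : ∃ t, t = mu / 4 := ⟨_, rfl⟩
  obtain ⟨k, hk⟩ : ∃ k, k = V / (mu / 2) := ⟨_, rfl⟩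
  have htpos : 0 < t := by rw [ht]; positivity
  have hkpos : 0 ≤ k := by rw [hk]; positivity
  have e1 : (4 + 2 * k) * t = lam := by rw [hk, ht, hlam]; field_simp; ring
  have e2 : (8 + 2 * k) * t = lam + mu := by rw [hk, ht, hlam]; field_simp; ring
  have e3 : 4 * t = mu := by rw [ht]; ring
  have e4 : (2 + k) * t = lam / 2 := by rw [hk, ht, hlam]; field_simp; ring
  have e5 : (4 + k) * t = lam / 2 + mu / 2 := by rw [hk, ht, hlam]; field_simp; ring
  have e6 : 2 * t = mu / 2 := by rw [ht]; ring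
  have e7 : 2 * k * t = lam - mu := by rw [hk, ht, hlam]; field_simp; ring
  have hCX := CX_nonneg k t hkpos htpos
  have hGc := Gc_nonneg k t hkpos htpos
  rw [e1, e2, e3, e4, e5, e6] at hCX
  rw [e1, e2, e3, e4, e5, e6, e7] at hGc
  rw [← hk] at hcx hcz
  have hsl : 0 < sinh lam := sinh_pos_iff.mpr hlampos
  have hslm : 0 < sinh (lam + mu) := sinh_pos_iff.mpr (by linarith)
  have hcm : 0 < cosh mu := cosh_pos _
  have hs2 : 0 < sinh (lam / 2) := sinh_pos_iff.mpr (by linarith)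
  have hs4 : 0 < sinh (lam / 2 + mu / 2) := sinh_pos_iff.mpr (by linarith)
  have hsm : 0 < sinh (mu / 2) := sinh_pos_iff.mpr (by linarith)
  have hc2 : 0 < cosh (lam / 2) := cosh_pos _
  have hc4 : 0 < cosh (lam / 2 + mu / 2) := cosh_pos _
  have hXc : 0 ≤ k * (sinh (mu / 2) / (sinh (lam / 2) * sinh (lam / 2 + mu / 2))) := by
    positivity
  have hX0 : 0 ≤ X := le_trans hXc hcx
  generalize k * (sinh (mu / 2) / (sinh (lam / 2) * sinh (lam / 2 + mu / 2))) = Xc at *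
  generalize k * (sinh (mu / 2) / (cosh (lam / 2) * cosh (lam / 2 + mu / 2))) = Zc at *
  have hdz : 0 ≤ 1 / 2 * sinh lam * sinh (lam + mu) + 4 * cosh mu * cosh (lam / 2) ^ 2
      + 1 / 2 * sinh lam * cosh mu * X := by positivity
  have f1 := mul_nonneg hdz (sub_nonneg.mpr hcz)
  have f2 := mul_nonneg hCX (sub_nonneg.mpr hcx)
  nlinarith [f1, f2, hGc]

/-- **Hyperbolic form of (starW).** With `e^(-lam) = sqrt p`, `e^(-mu) = sqrt c`,
`a_k = e^(-2 v_k)` (so `0 ≤ v_k ≤ mu/2` is `sqrt c ≤ a_k ≤ 1` and `lam = mu + ∑ v_k` is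
`p = c ∏ a_k`), the merging inequality reads `4 sinh(lam - mu) ≤ G(X, Z)`. -/
theorem G_nonneg {ι : Type*} (R : Finset ι) (v : ι → ℝ) (lam mu X Z : ℝ) (hmu : 0 < mu)
    (hv : ∀ k ∈ R, 0 ≤ v k ∧ v k ≤ mu / 2) (hlam : lam = mu + ∑ k ∈ R, v k)
    (hX : X = ∑ k ∈ R, Real.sinh (v k) / (Real.sinh (lam / 2) * Real.sinh (lam / 2 + v k)))
    (hZ : Z = ∑ k ∈ R, Real.sinh (v k) / (Real.cosh (lam / 2) * Real.cosh (lam / 2 + v k))) :
    4 * Real.sinh (lam - mu) ≤ 1 / 2 * Real.sinh lam * Real.sinh (lam + mu) * (X + Z)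
      + 4 * Real.cosh mu * (Real.cosh (lam / 2) ^ 2 * Z - Real.sinh (lam / 2) ^ 2 * X)
      + 1 / 2 * Real.sinh lam * Real.cosh mu * (X * Z) := by
  have hV : 0 ≤ ∑ k ∈ R, v k := Finset.sum_nonneg fun k hk => (hv k hk).1
  have hl : 0 < lam / 2 := by linarith
  have hw : 0 < mu / 2 := by linarith
  have hcx := Vale.Agent.Helper16.WnChord.sum_chord_x R v (lam / 2) (mu / 2) hl hw hv
  have hcz := Vale.Agent.Helper16.WnChord.sum_chord_z R v (lam / 2) (mu / 2) hl.le hw hv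
  rw [← hX] at hcx
  rw [← hZ] at hcz
  exact G_nonneg_of_chord lam mu (∑ k ∈ R, v k) X Z hmu hV hlam hcx hcz

end Vale.Agent.Helper13.StarW
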