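import Vale.Agent.Helper13.StarWSeries

/-!
# The two closed-form identities behind Steps 3-4 of the proof of (starW) (P254)
-/

namespace Vale.Agent.Helper13.StarW

open Real

theorem exp_form (k t : ℝ) (a b : ℕ) (x : ℝ) (hx : x = a * t + b * (k * t)) :
    exp x = exp t ^ a * exp (k * t) ^ b := by
  rw [hx, exp_add, exp_nat_mul, exp_nat_mul]

theorem sinh_form (k t : ℝ) (a b : ℕ) (x : ℝ) (hx : x = a * t + b * (k * t)) :
    sinh x = (exp t ^ a * exp (k * t) ^ b - (exp t ^ a * exp (k * t) ^ b)⁻¹) / 2 := by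
  rw [sinh_eq, exp_neg, exp_form k t a b x hx]

theorem cosh_form (k t : ℝ) (a b : ℕ) (x : ℝ) (hx : x = a * t + b * (k * t)) :
    cosh x = (exp t ^ a * exp (k * t) ^ b + (exp t ^ a * exp (k * t) ^ b)⁻¹) / 2 := by
  rw [cosh_eq, exp_neg, exp_form k t a b x hx]

/-- Step 3 identity: the `X`-derivative of `G` at `Z = Zc` is a positive multiple of `Dfun`. -/
theorem CX_identity (k t : ℝ) :
    (1/2 * sinh ((4+2*k)*t) * sinh ((8+2*k)*t) - 4 * cosh (4*t) * sinh ((2+k)*t)^2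
        + 1/2 * sinh ((4+2*k)*t) * cosh (4*t)
          * (k * (sinh (2*t) / (cosh ((2+k)*t) * cosh ((4+k)*t)))))
      * (2 * cosh ((2+k)*t) * cosh ((4+k)*t))
    = sinh ((4+2*k)*t) * Dfun k t := by
  have hA : 0 < exp t := exp_pos t
  have hB : 0 < exp (k*t) := exp_pos _
  unfold Dfun
  rw [sinh_form k t 4 2 ((4+2*k)*t) (by push_cast; ring),
    sinh_form k t 8 2 ((8+2*k)*t) (by push_cast; ring),
    cosh_form k t 4 0 (4*t) (by push_cast; ring),
    sinh_form k t 2 1 ((2+k)*t) (by push_cast; ring),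
    sinh_form k t 2 0 (2*t) (by push_cast; ring),
    cosh_form k t 2 1 ((2+k)*t) (by push_cast; ring),
    cosh_form k t 4 1 ((4+k)*t) (by push_cast; ring),
    sinh_form k t 14 4 ((14+4*k)*t) (by push_cast; ring),
    sinh_form k t 10 2 ((10+2*k)*t) (by push_cast; ring),
    sinh_form k t 6 2 ((6+2*k)*t) (by push_cast; ring),
    sinh_form k t 2 2 ((2+2*k)*t) (by push_cast; ring),
    sinh_form k t 6 0 (6*t) (by push_cast; ring)]
  generalize exp t = A at *
  generalize exp (k*t) = B at *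
  have hA' : A ≠ 0 := hA.ne'
  have hB' : B ≠ 0 := hB.ne'
  simp only [pow_zero, mul_one]
  have h1 : A^2*B^1 * (A^2*B^1) + 1 ≠ 0 := by positivity
  have h2 : A^4*B^1 * (A^4*B^1) + 1 ≠ 0 := by positivity
  field_simp
  ring

theorem CX_nonneg (k t : ℝ) (hk : 0 ≤ k) (ht : 0 < t) :
    0 ≤ 1/2 * sinh ((4+2*k)*t) * sinh ((8+2*k)*t) - 4 * cosh (4*t) * sinh ((2+k)*t)^2
        + 1/2 * sinh ((4+2*k)*t) * cosh (4*t)
          * (k * (sinh (2*t) / (cosh ((2+k)*t) * cosh ((4+k)*t)))) := by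
  have h := CX_identity k t
  have hD := Dfun_nonneg k t hk ht.le
  have hs : 0 < sinh ((4+2*k)*t) := sinh_pos_iff.mpr (by positivity)
  have hc : 0 < 2 * cosh ((2+k)*t) * cosh ((4+k)*t) :=
    mul_pos (mul_pos two_pos (cosh_pos _)) (cosh_pos _)
  have h0 : 0 ≤ sinh ((4+2*k)*t) * Dfun k t := mul_nonneg hs.le hD
  rw [← h] at h0
  exact nonneg_of_mul_nonneg_left h0 hc

/-- Step 4 identity (denominator-free form). -/
theorem Gc_poly_identity (k t : ℝ) :
    (1/2 * sinh ((4+2*k)*t) * sinh ((8+2*k)*t) * k * sinh (2*t)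
          * (cosh ((2+k)*t) * cosh ((4+k)*t) + sinh ((2+k)*t) * sinh ((4+k)*t))
        + 4 * cosh (4*t) * k * sinh (2*t) * cosh ((2+k)*t) * sinh ((2+k)*t)
          * (cosh ((2+k)*t) * sinh ((4+k)*t) - sinh ((2+k)*t) * cosh ((4+k)*t))
        + 1/2 * sinh ((4+2*k)*t) * cosh (4*t) * k^2 * sinh (2*t)^2
        - 4 * sinh (2*k*t) * (sinh ((2+k)*t) * sinh ((4+k)*t) * cosh ((2+k)*t) * cosh ((4+k)*t)))
      * sinh ((8+2*k)*t)
    = 2 * Efun (2*k) (2*t)
        * (sinh ((2+k)*t) * sinh ((4+k)*t) * cosh ((2+k)*t) * cosh ((4+k)*t)) := by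
  have hA : 0 < exp t := exp_pos t
  have hB : 0 < exp (k*t) := exp_pos _
  unfold Efun
  rw [sinh_form k t 4 2 ((4+2*k)*t) (by push_cast; ring),
    sinh_form k t 8 2 ((8+2*k)*t) (by push_cast; ring),
    cosh_form k t 4 0 (4*t) (by push_cast; ring),
    sinh_form k t 2 1 ((2+k)*t) (by push_cast; ring),
    sinh_form k t 4 1 ((4+k)*t) (by push_cast; ring),
    sinh_form k t 2 0 (2*t) (by push_cast; ring),
    cosh_form k t 2 1 ((2+k)*t) (by push_cast; ring),
    cosh_form k t 4 1 ((4+k)*t) (by push_cast; ring),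
    sinh_form k t 0 2 (2*k*t) (by push_cast; ring),
    cosh_form k t 16 4 ((8+2*k)*(2*t)) (by push_cast; ring),
    cosh_form k t 12 4 ((6+2*k)*(2*t)) (by push_cast; ring),
    cosh_form k t 8 4 ((4+2*k)*(2*t)) (by push_cast; ring),
    cosh_form k t 8 0 (4*(2*t)) (by push_cast; ring),
    cosh_form k t 4 0 (2*(2*t)) (by push_cast; ring)]
  generalize exp t = A at *
  generalize exp (k*t) = B at *
  have hA' : A ≠ 0 := hA.ne'
  have hB' : B ≠ 0 := hB.ne'
  simp only [pow_zero, mul_one, one_mul]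
  field_simp
  ring

theorem Gc_nonneg (k t : ℝ) (hk : 0 ≤ k) (ht : 0 < t) :
    4 * sinh (2*k*t) ≤
      1/2 * sinh ((4+2*k)*t) * sinh ((8+2*k)*t)
          * (k * (sinh (2*t) / (sinh ((2+k)*t) * sinh ((4+k)*t)))
            + k * (sinh (2*t) / (cosh ((2+k)*t) * cosh ((4+k)*t))))
        + 4 * cosh (4*t)
          * (cosh ((2+k)*t)^2 * (k * (sinh (2*t) / (cosh ((2+k)*t) * cosh ((4+k)*t))))
            - sinh ((2+k)*t)^2 * (k * (sinh (2*t) / (sinh ((2+k)*t) * sinh ((4+k)*t)))))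
        + 1/2 * sinh ((4+2*k)*t) * cosh (4*t)
          * ((k * (sinh (2*t) / (sinh ((2+k)*t) * sinh ((4+k)*t))))
            * (k * (sinh (2*t) / (cosh ((2+k)*t) * cosh ((4+k)*t))))) := by
  have hs2 : 0 < sinh ((2+k)*t) := sinh_pos_iff.mpr (by positivity)
  have hs4 : 0 < sinh ((4+k)*t) := sinh_pos_iff.mpr (by positivity)
  have hc2 : 0 < cosh ((2+k)*t) := cosh_pos _
  have hc4 : 0 < cosh ((4+k)*t) := cosh_pos _
  have hsLM : 0 < sinh ((8+2*k)*t) := sinh_pos_iff.mpr (by positivity)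
  have key := Gc_poly_identity k t
  have hE := Efun_nonneg (2*k) (2*t) (by positivity)
  have hprod : 0 < sinh ((2+k)*t) * sinh ((4+k)*t) * cosh ((2+k)*t) * cosh ((4+k)*t) := by
    positivity
  have h0 : 0 ≤ 2 * Efun (2*k) (2*t)
      * (sinh ((2+k)*t) * sinh ((4+k)*t) * cosh ((2+k)*t) * cosh ((4+k)*t)) := by positivity
  rw [← key] at h0
  have hP := nonneg_of_mul_nonneg_left h0 hsLM
  generalize sinh ((2+k)*t) = s2 at *
  generalize sinh ((4+k)*t) = s4 at *
  generalize cosh ((2+k)*t) = c2 at *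
  generalize cosh ((4+k)*t) = c4 at *
  generalize sinh ((4+2*k)*t) = sL at *
  generalize sinh ((8+2*k)*t) = sLM at *
  generalize cosh (4*t) = cM at *
  generalize sinh (2*t) = σ at *
  generalize sinh (2*k*t) = sK at *
  rw [← sub_nonneg]
  have hs2' := hs2.ne'
  have hs4' := hs4.ne'
  have hc2' := hc2.ne'
  have hc4' := hc4.ne'
  have e : 1/2 * sL * sLM * (k * (σ / (s2 * s4)) + k * (σ / (c2 * c4)))
        + 4 * cM * (c2^2 * (k * (σ / (c2 * c4))) - s2^2 * (k * (σ / (s2 * s4))))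
        + 1/2 * sL * cM * ((k * (σ / (s2 * s4))) * (k * (σ / (c2 * c4)))) - 4 * sK
      = (1/2 * sL * sLM * k * σ * (c2 * c4 + s2 * s4)
        + 4 * cM * k * σ * c2 * s2 * (c2 * s4 - s2 * c4)
        + 1/2 * sL * cM * k^2 * σ^2
        - 4 * sK * (s2 * s4 * c2 * c4)) / (s2 * s4 * c2 * c4) := by
    field_simp
  rw [e]
  exact div_nonneg hP hprod.le

end Vale.Agent.Helper13.StarW
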