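import Mathlib

/-!
# Two positive hyperbolic sums used in the proof of the merging inequality (starW) of P254

`Dfun k t ≥ 0` and `Efun N m ≥ 0` for `k, t, N ≥ 0`: both are finite combinations of
`sinh`/`cosh` of linear forms whose Taylor coefficients are polynomials with a sign that is
proved by a one-step recurrence.
-/

namespace Vale.Agent.Helper13.StarW

open Real

/-- Taylor coefficient of `Dfun` (coefficient of `t^(2j+1)/(2j+1)!`). -/
noncomputable def dD (k : ℝ) (j : ℕ) : ℝ :=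
  1/4 * (14+4*k) * ((14+4*k)^2)^j - 3/4 * (10+2*k) * ((10+2*k)^2)^j
    + 1/4 * (6+2*k) * ((6+2*k)^2)^j - (2+2*k) * ((2+2*k)^2)^j
    + (1+k/2) * 6 * (36:ℝ)^j - (3/4+k/2) * 2 * (4:ℝ)^j

theorem dD_zero (k : ℝ) : dD k 0 = 0 := by
  simp only [dD, pow_zero]; ring

theorem dD_one (k : ℝ) : dD k 1 = 192 + 272*k + 72*k^2 + 4*k^3 := by
  simp only [dD, pow_one]; ring

theorem dD_succ (k : ℝ) (j : ℕ) :
    dD k (j+1) = (10+2*k)^2 * dD k j
      + (1/4 * (14+4*k) * ((14+4*k)^2 - (10+2*k)^2) * ((14+4*k)^2)^j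
        - 1/4 * (6+2*k) * ((10+2*k)^2 - (6+2*k)^2) * ((6+2*k)^2)^j
        + (2+2*k) * ((10+2*k)^2 - (2+2*k)^2) * ((2+2*k)^2)^j
        - (1+k/2) * 6 * ((10+2*k)^2 - 36) * (36:ℝ)^j
        + (3/4+k/2) * 2 * ((10+2*k)^2 - 4) * (4:ℝ)^j) := by
  simp only [dD, pow_succ]; ring

theorem dD_nonneg (k : ℝ) (hk : 0 ≤ k) : ∀ j, 0 ≤ dD k j := by
  have key : ∀ i, 0 ≤ dD k (i+1) := by
    intro i
    induction i with
    | zero =>
      rw [zero_add, dD_one]; positivity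
    | succ i ih =>
      rw [dD_succ]
      have h1 : (0:ℝ) ≤ ((6+2*k)^2)^i := by positivity
      have h2 : ((6+2*k)^2)^i ≤ ((14+4*k)^2)^i :=
        pow_le_pow_left₀ (by positivity) (by nlinarith) i
      have h3 : ((36:ℝ))^i ≤ ((6+2*k)^2)^i :=
        pow_le_pow_left₀ (by norm_num) (by nlinarith) i
      have h4 : (0:ℝ) ≤ ((2+2*k)^2)^i := by positivity
      have h5 : (0:ℝ) ≤ (4:ℝ)^i := by positivity
      have e1 : ((14+4*k)^2)^(i+1) = ((14+4*k)^2)^i * (14+4*k)^2 := pow_succ _ _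
      have e2 : ((6+2*k)^2)^(i+1) = ((6+2*k)^2)^i * (6+2*k)^2 := pow_succ _ _
      have e3 : ((2+2*k)^2)^(i+1) = ((2+2*k)^2)^i * (2+2*k)^2 := pow_succ _ _
      have e4 : ((36:ℝ))^(i+1) = (36:ℝ)^i * 36 := pow_succ _ _
      have e5 : ((4:ℝ))^(i+1) = (4:ℝ)^i * 4 := pow_succ _ _
      rw [e1, e2, e3, e4, e5]
      generalize ((14+4*k)^2)^i = Y at *
      generalize ((6+2*k)^2)^i = y at *
      generalize ((2+2*k)^2)^i = u at *
      generalize ((36:ℝ))^i = s at *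
      generalize ((4:ℝ))^i = f at *
      have f6 : 0 ≤ (10+2*k)^2 * dD k (i+1) := mul_nonneg (by positivity) ih
      have hα : 0 ≤ 1/4 * (14+4*k) * ((14+4*k)^2 - (10+2*k)^2) * (14+4*k)^2 := by
        have : 0 ≤ (14+4*k)^2 - (10+2*k)^2 := by nlinarith
        positivity
      have hγ : 0 ≤ (1+k/2) * 6 * ((10+2*k)^2 - 36) * 36 := by
        have : 0 ≤ (10+2*k)^2 - 36 := by nlinarith
        positivity
      have hδ : 0 ≤ 1/4 * (14+4*k) * ((14+4*k)^2 - (10+2*k)^2) * (14+4*k)^2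
          - 1/4 * (6+2*k) * ((10+2*k)^2 - (6+2*k)^2) * (6+2*k)^2
          - (1+k/2) * 6 * ((10+2*k)^2 - 36) * 36 := by
        have : 1/4 * (14+4*k) * ((14+4*k)^2 - (10+2*k)^2) * (14+4*k)^2
          - 1/4 * (6+2*k) * ((10+2*k)^2 - (6+2*k)^2) * (6+2*k)^2
          - (1+k/2) * 6 * ((10+2*k)^2 - 36) * 36
          = 48576 + 85968*k + 59496*k^2 + 19840*k^3 + 3136*k^4 + 192*k^5 := by ring
        rw [this]; positivity
      have f1 := mul_nonneg hα (sub_nonneg.mpr h2)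
      have f2 := mul_nonneg hγ (sub_nonneg.mpr h3)
      have f3 := mul_nonneg hδ h1
      have f4 : 0 ≤ (2+2*k) * ((10+2*k)^2 - (2+2*k)^2) * (u * (2+2*k)^2) := by
        have : 0 ≤ (10+2*k)^2 - (2+2*k)^2 := by nlinarith
        positivity
      have f5 : 0 ≤ (3/4+k/2) * 2 * ((10+2*k)^2 - 4) * (f * 4) := by
        have : 0 ≤ (10+2*k)^2 - 4 := by nlinarith
        positivity
      linarith
  intro j
  cases j with
  | zero => rw [dD_zero]
  | succ i => exact key i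

/-- The first positive sum. -/
noncomputable def Dfun (k t : ℝ) : ℝ :=
  1/4 * sinh ((14+4*k)*t) - 3/4 * sinh ((10+2*k)*t) + 1/4 * sinh ((6+2*k)*t)
    - sinh ((2+2*k)*t) + (1+k/2) * sinh (6*t) - (3/4+k/2) * sinh (2*t)

theorem Dfun_hasSum (k t : ℝ) :
    HasSum (fun j : ℕ => dD k j * (t^(2*j+1) / ((2*j+1).factorial : ℝ))) (Dfun k t) := by
  have h1 := (hasSum_sinh ((14+4*k)*t)).mul_left (1/4)
  have h2 := (hasSum_sinh ((10+2*k)*t)).mul_left (3/4)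
  have h3 := (hasSum_sinh ((6+2*k)*t)).mul_left (1/4)
  have h4 := (hasSum_sinh ((2+2*k)*t))
  have h5 := (hasSum_sinh (6*t)).mul_left (1+k/2)
  have h6 := (hasSum_sinh (2*t)).mul_left (3/4+k/2)
  have h := ((((h1.sub h2).add h3).sub h4).add h5).sub h6
  have hfun : (fun j : ℕ => dD k j * (t^(2*j+1) / ((2*j+1).factorial : ℝ)))
      = (fun b : ℕ => 1/4 * (((14+4*k)*t)^(2*b+1) / ((2*b+1).factorial : ℝ))
        - 3/4 * (((10+2*k)*t)^(2*b+1) / ((2*b+1).factorial : ℝ))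
        + 1/4 * (((6+2*k)*t)^(2*b+1) / ((2*b+1).factorial : ℝ))
        - ((2+2*k)*t)^(2*b+1) / ((2*b+1).factorial : ℝ)
        + (1+k/2) * ((6*t)^(2*b+1) / ((2*b+1).factorial : ℝ))
        - (3/4+k/2) * ((2*t)^(2*b+1) / ((2*b+1).factorial : ℝ))) := by
    funext b
    simp only [dD]
    have e : ∀ a : ℝ, (a*t)^(2*b+1) = a * (a^2)^b * t^(2*b+1) := by
      intro a; ring
    rw [e (14+4*k), e (10+2*k), e (6+2*k), e (2+2*k), e 6, e 2]
    norm_num
    ring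
  rw [hfun]
  exact h

theorem Dfun_nonneg (k t : ℝ) (hk : 0 ≤ k) (ht : 0 ≤ t) : 0 ≤ Dfun k t :=
  (Dfun_hasSum k t).nonneg fun j =>
    mul_nonneg (dD_nonneg k hk j) (div_nonneg (pow_nonneg ht _) (Nat.cast_nonneg _))

/-- Taylor coefficient of `Efun` (coefficient of `m^(2j)/(2j)!`, `j ≥ 1`). -/
noncomputable def cE (N : ℝ) (j : ℕ) : ℝ :=
  N/8 * (((8+N)^2)^j - ((6+N)^2)^j) - ((4+N)^2)^j + (16:ℝ)^j + N/8 * (4:ℝ)^j
    + N*(8+N)/16 * ((16:ℝ)^j - 2 * (4:ℝ)^j)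

theorem cE_one (N : ℝ) : cE N 1 = 0 := by
  simp only [cE, pow_one]; ring

theorem cE_two (N : ℝ) : cE N 2 = 208*N + 66*N^2 + 5*N^3 := by
  simp only [cE]; ring

theorem cE_succ (N : ℝ) (j : ℕ) :
    cE N (j+1) = (6+N)^2 * cE N j
      + (N/8 * ((8+N)^2 - (6+N)^2) * ((8+N)^2)^j
        + ((6+N)^2 - (4+N)^2) * ((4+N)^2)^j
        - (1 + N*(8+N)/16) * ((6+N)^2 - 16) * (16:ℝ)^j
        + N*(7+N)/8 * ((6+N)^2 - 4) * (4:ℝ)^j) := by
  simp only [cE, pow_succ]; ring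

theorem cE_nonneg (N : ℝ) (hN : 0 ≤ N) : ∀ j, 0 ≤ cE N (j+1) := by
  have key : ∀ i, 0 ≤ cE N (i+2) := by
    intro i
    induction i with
    | zero =>
      rw [zero_add, cE_two]; positivity
    | succ i ih =>
      rw [show i + 1 + 2 = (i + 2) + 1 by ring, cE_succ]
      have h1 : (0:ℝ) ≤ (16:ℝ)^i := by positivity
      have h2 : ((16:ℝ))^i ≤ ((4+N)^2)^i :=
        pow_le_pow_left₀ (by norm_num) (by nlinarith) i
      have h3 : (0:ℝ) ≤ ((8+N)^2)^(i+2) := by positivity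
      have h4 : (0:ℝ) ≤ (4:ℝ)^(i+2) := by positivity
      have e1 : ((4+N)^2)^(i+2) = ((4+N)^2)^i * (4+N)^4 := by rw [pow_add]; ring
      have e2 : ((16:ℝ))^(i+2) = (16:ℝ)^i * 256 := by rw [pow_add]; norm_num
      rw [e1, e2]
      generalize ((8+N)^2)^(i+2) = Y at *
      generalize ((4+N)^2)^i = y at *
      generalize ((16:ℝ))^i = s at *
      generalize ((4:ℝ))^(i+2) = f at *
      have f6 : 0 ≤ (6+N)^2 * cE N (i+2) := mul_nonneg (by positivity) ih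
      have hα : 0 ≤ ((6+N)^2 - (4+N)^2) * (4+N)^4 := by
        have : 0 ≤ (6+N)^2 - (4+N)^2 := by nlinarith
        positivity
      have hδ : 0 ≤ ((6+N)^2 - (4+N)^2) * (4+N)^4
          - 256 * ((1 + N*(8+N)/16) * ((6+N)^2 - 16)) := by
        have : ((6+N)^2 - (4+N)^2) * (4+N)^4
          - 256 * ((1 + N*(8+N)/16) * ((6+N)^2 - 16))
          = 512*N + 832*N^2 + 384*N^3 + 68*N^4 + 4*N^5 := by ring
        rw [this]; positivity
      have f1 := mul_nonneg hα (sub_nonneg.mpr h2)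
      have f3 := mul_nonneg hδ h1
      have f4 : 0 ≤ N/8 * ((8+N)^2 - (6+N)^2) * Y := by
        have : 0 ≤ (8+N)^2 - (6+N)^2 := by nlinarith
        positivity
      have f5 : 0 ≤ N*(7+N)/8 * ((6+N)^2 - 4) * f := by
        have : 0 ≤ (6+N)^2 - 4 := by nlinarith
        positivity
      linarith
  intro j
  cases j with
  | zero => rw [zero_add, cE_one]
  | succ i => exact key i

/-- The second positive sum. -/
noncomputable def Efun (N m : ℝ) : ℝ :=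
  N/8 * (cosh ((8+N)*m) - cosh ((6+N)*m)) - cosh ((4+N)*m) + cosh (4*m)
    + N/8 * (cosh (2*m) - 1) + N*(8+N)/16 * (cosh (4*m) - 2 * cosh (2*m) + 1)

theorem hasSum_cosh_sub_one (x : ℝ) :
    HasSum (fun n : ℕ => x^(2*(n+1)) / ((2*(n+1)).factorial : ℝ)) (cosh x - 1) := by
  have h := (hasSum_nat_add_iff' 1).mpr (hasSum_cosh x)
  simpa using h

theorem Efun_hasSum (N m : ℝ) :
    HasSum (fun j : ℕ => cE N (j+1) * (m^(2*(j+1)) / ((2*(j+1)).factorial : ℝ))) (Efun N m) := by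
  have h8 := hasSum_cosh_sub_one ((8+N)*m)
  have h6 := hasSum_cosh_sub_one ((6+N)*m)
  have h4N := hasSum_cosh_sub_one ((4+N)*m)
  have h4 := hasSum_cosh_sub_one (4*m)
  have h2 := hasSum_cosh_sub_one (2*m)
  have h := (((((h8.sub h6).mul_left (N/8)).sub h4N).add h4).add (h2.mul_left (N/8))).add
    ((h4.sub (h2.mul_left 2)).mul_left (N*(8+N)/16))
  have hval : N/8 * ((cosh ((8+N)*m) - 1) - (cosh ((6+N)*m) - 1)) - (cosh ((4+N)*m) - 1)
      + (cosh (4*m) - 1) + N/8 * (cosh (2*m) - 1)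
      + N*(8+N)/16 * ((cosh (4*m) - 1) - 2 * (cosh (2*m) - 1)) = Efun N m := by
    simp only [Efun]; ring
  rw [hval] at h
  have hfun : (fun j : ℕ => cE N (j+1) * (m^(2*(j+1)) / ((2*(j+1)).factorial : ℝ)))
      = (fun b : ℕ => N/8 * (((8+N)*m)^(2*(b+1)) / ((2*(b+1)).factorial : ℝ)
          - ((6+N)*m)^(2*(b+1)) / ((2*(b+1)).factorial : ℝ))
        - ((4+N)*m)^(2*(b+1)) / ((2*(b+1)).factorial : ℝ)
        + (4*m)^(2*(b+1)) / ((2*(b+1)).factorial : ℝ)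
        + N/8 * ((2*m)^(2*(b+1)) / ((2*(b+1)).factorial : ℝ))
        + N*(8+N)/16 * ((4*m)^(2*(b+1)) / ((2*(b+1)).factorial : ℝ)
          - 2 * ((2*m)^(2*(b+1)) / ((2*(b+1)).factorial : ℝ)))) := by
    funext b
    simp only [cE]
    have e : ∀ a : ℝ, (a*m)^(2*(b+1)) = (a^2)^(b+1) * m^(2*(b+1)) := by
      intro a; ring
    rw [e (8+N), e (6+N), e (4+N), e 4, e 2]
    norm_num
    ring
  rw [hfun]
  exact h

theorem Efun_nonneg (N m : ℝ) (hN : 0 ≤ N) : 0 ≤ Efun N m :=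
  (Efun_hasSum N m).nonneg fun j =>
    mul_nonneg (cE_nonneg N hN j) (div_nonneg (by
      rw [pow_mul]; positivity) (Nat.cast_nonneg _))

end Vale.Agent.Helper13.StarW
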